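import Vale.Agent.P305.R2.H89.Far

/-! Classes of far graphs of hyperbolic space. -/

set_option autoImplicit false

namespace Vale.Agent.P305.H89

open Vale.Agent.P305 Vale.Agent.P305.H529 Vale.Agent.P305.H287
open Filter Topology

/-- The squared horizontal distance. -/
def qq (x y : E3) : ℝ := (x 0 - y 0) ^ 2 + (x 1 - y 1) ^ 2

theorem dist_sq3 (x y : E3) : dist x y ^ 2 = qq x y + (x 2 - y 2) ^ 2 := by
  rw [dist_sq]; rfl

theorem farH_of {V : Type} {G : SimpleGraph V} (c : V → E3) (hc : ∀ v, 0 < c v 2) (ε : ℝ)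
    (hε : 0 < ε) (h : ∀ v u w, G.Adj v u → w ≠ v → ¬ G.Adj v w →
      (qq (c v) (c w) + ε * (c v 2 - c w 2) ^ 2) / c w 2 <
        (qq (c v) (c u) + ε * (c v 2 - c u 2) ^ 2) / c u 2) : IsFarHyperbolic G := by
  have hs : 0 < √ε := Real.sqrt_pos.2 hε
  have hs2 : √ε ^ 2 = ε := Real.sq_sqrt hε.le
  let c' : V → HalfSpace := fun v => ⟨!₂[c v 0 / √ε, c v 1 / √ε, c v 2], hc v⟩
  have key : ∀ v w, coshDist (c' v) (c' w) =
      1 + (1 / (2 * ε * c v 2)) * ((qq (c v) (c w) + ε * (c v 2 - c w 2) ^ 2) / c w 2) := by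
    intro v w
    have e0 : (c' v).1 2 = c v 2 := rfl
    have e1 : (c' w).1 2 = c w 2 := rfl
    have e2 : qq (c' v).1 (c' w).1 = qq (c v) (c w) / ε := by
      have : qq (c' v).1 (c' w).1 = (c v 0 / √ε - c w 0 / √ε) ^ 2 +
        (c v 1 / √ε - c w 1 / √ε) ^ 2 := rfl
      rw [this, ← sub_div, ← sub_div, div_pow, div_pow, hs2, qq]
      ring
    unfold coshDist
    rw [dist_sq3, e0, e1, e2]
    have h1 := (hc v).ne'
    have h2 := (hc w).ne'
    field_simp
  refine ⟨c', fun v u w h1 h2 h3 => ?_⟩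
  rw [key, key]
  have h4 := h v u w h1 h2 h3
  have h5 : 0 < 1 / (2 * ε * c v 2) := by have := hc v; positivity
  have := mul_lt_mul_of_pos_left h4 h5
  linarith

theorem farH_of_limit {V : Type} [Finite V] {G : SimpleGraph V} (c : V → E3)
    (hc : ∀ v, 0 < c v 2) (h : ∀ v u w, G.Adj v u → w ≠ v → ¬ G.Adj v w →
      qq (c v) (c w) / c w 2 < qq (c v) (c u) / c u 2) : IsFarHyperbolic G := by
  have h1 : ∀ᶠ ε in 𝓝[>] (0 : ℝ), ∀ v u w, G.Adj v u → w ≠ v → ¬ G.Adj v w →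
      (qq (c v) (c w) + ε * (c v 2 - c w 2) ^ 2) / c w 2 <
        (qq (c v) (c u) + ε * (c v 2 - c u 2) ^ 2) / c u 2 := by
    refine eventually_all.2 fun v => eventually_all.2 fun u => eventually_all.2 fun w => ?_
    by_cases hh : G.Adj v u ∧ w ≠ v ∧ ¬ G.Adj v w
    · have h2 := h v u w hh.1 hh.2.1 hh.2.2
      have t1 : Tendsto (fun ε : ℝ => (qq (c v) (c w) + ε * (c v 2 - c w 2) ^ 2) / c w 2)
          (𝓝[>] (0 : ℝ)) (𝓝 (qq (c v) (c w) / c w 2)) := by
        have : Continuous fun ε : ℝ => (qq (c v) (c w) + ε * (c v 2 - c w 2) ^ 2) / c w 2 := by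
          fun_prop
        have h3 := this.tendsto 0
        simp only [zero_mul, add_zero] at h3
        exact h3.mono_left nhdsWithin_le_nhds
      have t2 : Tendsto (fun ε : ℝ => (qq (c v) (c u) + ε * (c v 2 - c u 2) ^ 2) / c u 2)
          (𝓝[>] (0 : ℝ)) (𝓝 (qq (c v) (c u) / c u 2)) := by
        have : Continuous fun ε : ℝ => (qq (c v) (c u) + ε * (c v 2 - c u 2) ^ 2) / c u 2 := by
          fun_prop
        have h3 := this.tendsto 0
        simp only [zero_mul, add_zero] at h3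
        exact h3.mono_left nhdsWithin_le_nhds
      filter_upwards [t1.eventually_lt t2 h2] with ε hε _ _ _
      exact hε
    · exact Eventually.of_forall fun ε k1 k2 k3 => absurd ⟨k1, k2, k3⟩ hh
  obtain ⟨ε, h2, h3⟩ := (h1.and self_mem_nhdsWithin).exists
  exact farH_of c hc ε h3 h2

theorem farH_of_cone {V : Type} [Finite V] {G : SimpleGraph V} {κ : ℝ} (hκ : 0 < κ)
    (hκ1 : κ ≤ 1) (h : IsCoCone κ G) : IsFarHyperbolic G := by
  obtain ⟨c, hc, hadj⟩ := h
  have dis : ∀ u v, u ≠ v → (G.Adj u v ↔ 4 * κ ^ 2 * (c u 2 * c v 2) <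
      qq (c u) (c v) + (1 - κ ^ 2) * (c u 2 - c v 2) ^ 2) := by
    intro u v huv
    rw [hadj u v huv, disjoint_closedBall_closedBall_iff (mul_pos hκ (hc u)).le
      (mul_pos hκ (hc v)).le]
    have h1 : 0 < κ * c u 2 + κ * c v 2 := add_pos (mul_pos hκ (hc u)) (mul_pos hκ (hc v))
    rw [← pow_lt_pow_iff_left₀ h1.le dist_nonneg two_ne_zero, dist_sq3]
    constructor <;> intro h2 <;> nlinarith
  have near : ∀ v u w, G.Adj v u → w ≠ v → ¬ G.Adj v w →
      (qq (c v) (c w) + (1 - κ ^ 2) * (c v 2 - c w 2) ^ 2) / c w 2 <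
        (qq (c v) (c u) + (1 - κ ^ 2) * (c v 2 - c u 2) ^ 2) / c u 2 := by
    intro v u w h1 h2 h3
    have h4 := (dis v u h1.ne).1 h1
    have h5 := not_lt.1 fun h6 => h3 ((dis v w h2.symm).2 h6)
    have h6 : (qq (c v) (c w) + (1 - κ ^ 2) * (c v 2 - c w 2) ^ 2) / c w 2 ≤
        4 * κ ^ 2 * c v 2 := by
      rw [div_le_iff₀ (hc w)]; linarith
    have h7 : 4 * κ ^ 2 * c v 2 <
        (qq (c v) (c u) + (1 - κ ^ 2) * (c v 2 - c u 2) ^ 2) / c u 2 := by
      rw [lt_div_iff₀ (hc u)]; linarith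
    exact h6.trans_lt h7
  rcases hκ1.lt_or_eq with h1 | h1
  · exact farH_of c hc (1 - κ ^ 2) (by nlinarith) near
  · refine farH_of_limit c hc fun v u w k1 k2 k3 => ?_
    have := near v u w k1 k2 k3
    rw [h1] at this
    simpa using this

theorem farH_of_farE {V : Type} [Finite V] {G : SimpleGraph V} (h : IsFarEuclidean G) :
    IsFarHyperbolic G := by
  obtain ⟨c, hc⟩ := h
  have h1 : ∀ᶠ ε in 𝓝[>] (0 : ℝ), (∀ v, 0 < 1 + ε * c v 2) ∧
      ∀ v u w, G.Adj v u → w ≠ v → ¬ G.Adj v w →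
      dist (c v) (c w) ^ 2 / (1 + ε * c w 2) < dist (c v) (c u) ^ 2 / (1 + ε * c u 2) := by
    have pos : ∀ v, ∀ᶠ ε in 𝓝[>] (0 : ℝ), 0 < 1 + ε * c v 2 := by
      intro v
      have : Continuous fun ε : ℝ => 1 + ε * c v 2 := by fun_prop
      have h3 := this.tendsto 0
      simp only [zero_mul, add_zero] at h3
      exact (h3.mono_left nhdsWithin_le_nhds).eventually_const_lt one_pos
    refine (eventually_all.2 pos).and
      (eventually_all.2 fun v => eventually_all.2 fun u => eventually_all.2 fun w => ?_)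
    by_cases hh : G.Adj v u ∧ w ≠ v ∧ ¬ G.Adj v w
    · have h2 := pow_lt_pow_left₀ (hc v u w hh.1 hh.2.1 hh.2.2) dist_nonneg two_ne_zero
      have t : ∀ w : V, Tendsto (fun ε : ℝ => dist (c v) (c w) ^ 2 / (1 + ε * c w 2))
          (𝓝[>] (0 : ℝ)) (𝓝 (dist (c v) (c w) ^ 2)) := by
        intro w
        have : Continuous fun ε : ℝ => 1 + ε * c w 2 := by fun_prop
        have h3 := this.tendsto 0
        simp only [zero_mul, add_zero] at h3
        have h5 : Tendsto (fun ε : ℝ => 1 + ε * c w 2) (𝓝[>] (0 : ℝ)) (𝓝 1) :=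
          h3.mono_left nhdsWithin_le_nhds
        have h6 : Tendsto (fun _ : ℝ => dist (c v) (c w) ^ 2) (𝓝[>] (0 : ℝ))
          (𝓝 (dist (c v) (c w) ^ 2)) := tendsto_const_nhds
        have h4 := h6.div h5 one_ne_zero
        rwa [div_one] at h4
      filter_upwards [(t w).eventually_lt (t u) h2] with ε hε _ _ _
      exact hε
    · exact Eventually.of_forall fun ε k1 k2 k3 => absurd ⟨k1, k2, k3⟩ hh
  obtain ⟨ε, ⟨h2, h3⟩, h4⟩ := (h1.and self_mem_nhdsWithin).exists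
  have hε : 0 < ε := h4
  let c' : V → HalfSpace := fun v => ⟨!₂[ε * c v 0, ε * c v 1, 1 + ε * c v 2], h2 v⟩
  have key : ∀ v w, coshDist (c' v) (c' w) =
      1 + (ε ^ 2 / (2 * (1 + ε * c v 2))) * (dist (c v) (c w) ^ 2 / (1 + ε * c w 2)) := by
    intro v w
    have e0 : (c' v).1 2 = 1 + ε * c v 2 := rfl
    have e1 : (c' w).1 2 = 1 + ε * c w 2 := rfl
    have e2 : qq (c' v).1 (c' w).1 = ε ^ 2 * qq (c v) (c w) := by
      have : qq (c' v).1 (c' w).1 = (ε * c v 0 - ε * c w 0) ^ 2 +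
        (ε * c v 1 - ε * c w 1) ^ 2 := rfl
      rw [this, qq]
      ring
    unfold coshDist
    rw [dist_sq3, dist_sq3, e0, e1, e2]
    have h1 := (h2 v).ne'
    have h2 := (h2 w).ne'
    field_simp
    ring
  refine ⟨c', fun v u w k1 k2 k3 => ?_⟩
  rw [key, key]
  have h5 : 0 < ε ^ 2 / (2 * (1 + ε * c v 2)) := by have := h2 v; positivity
  have := mul_lt_mul_of_pos_left (h3 v u w k1 k2 k3) h5
  linarith

end Vale.Agent.P305.H89
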