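import Mathlib.Analysis.InnerProductSpace.PiL2
import Mathlib.Combinatorics.SimpleGraph.Basic
import Mathlib.Geometry.Euclidean.Angle.Unoriented.Basic

/-! Graphs whose vertices are nearer to their non-neighbours than to their neighbours. -/

set_option autoImplicit false

namespace Vale.Agent.P305.H89

/-- The vertices of `G` can be represented by points such that every vertex `v` is nearer to each
of its non-neighbours `w` than to each of its neighbours `u`; here `δ` is the distance, or an
increasing function of it. -/
def IsFarGraph {M : Type} (δ : M → M → ℝ) {V : Type} (G : SimpleGraph V) : Prop :=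
  ∃ c : V → M, ∀ v u w : V, G.Adj v u → w ≠ v → ¬ G.Adj v w → δ (c v) (c w) < δ (c v) (c u)

/-- The upper half-space. -/
def HalfSpace : Type := {x : EuclideanSpace ℝ (Fin 3) // 0 < x 2}

/-- The hyperbolic cosine of the hyperbolic distance of two points of the upper half-space. -/
noncomputable def coshDist (x y : HalfSpace) : ℝ :=
  1 + dist x.1 y.1 ^ 2 / (2 * x.1 2 * y.1 2)

/-- A far graph of three-dimensional Euclidean space. -/
def IsFarEuclidean {V : Type} (G : SimpleGraph V) : Prop :=
  IsFarGraph (fun x y : EuclideanSpace ℝ (Fin 3) => dist x y) G

/-- A far graph of three-dimensional hyperbolic space. -/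
def IsFarHyperbolic {V : Type} (G : SimpleGraph V) : Prop := IsFarGraph coshDist G

/-- A far graph of the unit sphere of four-dimensional space (with the angle as distance), in which
non-neighbours have distance less than `π / 2`. -/
def IsFarSpherical {V : Type} (G : SimpleGraph V) : Prop :=
  ∃ c : V → EuclideanSpace ℝ (Fin 4), (∀ v, ‖c v‖ = 1) ∧
    ∀ v u w : V, G.Adj v u → w ≠ v → ¬ G.Adj v w →
      InnerProductGeometry.angle (c v) (c w) < InnerProductGeometry.angle (c v) (c u) ∧
      InnerProductGeometry.angle (c v) (c w) < Real.pi / 2

/-- The vertices of `G` are represented by points of the unit sphere of four-dimensional space,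
two different vertices being adjacent iff their distance (angle) is larger than `ρ`. -/
def IsSphereGraph (ρ : ℝ) {V : Type} (G : SimpleGraph V) : Prop :=
  ∃ c : V → EuclideanSpace ℝ (Fin 4), (∀ v, ‖c v‖ = 1) ∧
    ∀ u v, u ≠ v → (G.Adj u v ↔ ρ < InnerProductGeometry.angle (c u) (c v))

/-- `G` is the complement of an intersection graph of closed balls of three-dimensional space whose
centres lie above a plane and whose radii are `κ` times the distance of the centre to the plane:
two different vertices are adjacent in `G` iff their balls are disjoint. -/
def IsCoCone (κ : ℝ) {V : Type} (G : SimpleGraph V) : Prop :=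
  ∃ c : V → EuclideanSpace ℝ (Fin 3), (∀ v, 0 < c v 2) ∧ ∀ u v, u ≠ v →
    (G.Adj u v ↔ Disjoint (Metric.closedBall (c u) (κ * c u 2))
      (Metric.closedBall (c v) (κ * c v 2)))

end Vale.Agent.P305.H89
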