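import Vale.Agent.P305.R2.H89.Seq
import Vale.Agent.P305.R2.H89.Defs
import Vale.Agent.P305.H529.Ball.Final

/-! The packing number of far graphs. -/

set_option autoImplicit false

namespace Vale.Agent.P305.H89

open Vale.Agent.P305 Vale.Agent.P305.H529 Vale.Agent.P305.H287
open scoped InnerProductSpace

theorem periodic_walk {V : Type} (G : SimpleGraph V) (S : Set V)
    (hS : ¬ (G.induce S).IsBipartite) : ∃ (s : ℕ) (A : ℕ → V), Odd s ∧ A s = A 0 ∧
      A (s + 1) = A 1 ∧ (∀ i, A i ∈ S) ∧ ∀ i, G.Adj (A i) (A (i + 1)) := by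
  obtain ⟨s, a, hs, has, haS, haadj⟩ := exists_odd_walk G S hS
  refine ⟨s, fun i => a (i % s), hs, ?_, ?_, fun i => haS _, fun i => ?_⟩
  · simp only [Nat.mod_self, Nat.zero_mod]
  · simp only [Nat.add_mod_left]
  · exact periodise (fun u v => G.Adj u v) hs.pos a has haadj i

/-- The lift to the hyperboloid. -/
noncomputable def lift (x : HalfSpace) : ℝ × E3 :=
  ((x.1 0 ^ 2 + x.1 1 ^ 2 + x.1 2 ^ 2 + 1) / (2 * x.1 2),
    !₂[x.1 0 / x.1 2, x.1 1 / x.1 2, (x.1 0 ^ 2 + x.1 1 ^ 2 + x.1 2 ^ 2 - 1) / (2 * x.1 2)])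

theorem BB_lift (x y : HalfSpace) : BB (lift x) (lift y) = coshDist x y := by
  have hx : x.1 2 ≠ 0 := x.2.ne'
  have hy : y.1 2 ≠ 0 := y.2.ne'
  have h1 : dist x.1 y.1 ^ 2 = (x.1 0 - y.1 0) ^ 2 + (x.1 1 - y.1 1) ^ 2 +
      (x.1 2 - y.1 2) ^ 2 := by
    rw [dist_sq]; rfl
  unfold coshDist
  rw [h1]
  simp only [BB, lift, PiLp.inner_apply, Fin.sum_univ_three, RCLike.inner_apply, conj_trivial,
    Matrix.cons_val_zero, Matrix.cons_val_one, Matrix.cons_val]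
  field_simp
  ring

theorem isPt_lift (x : HalfSpace) : IsPt (lift x) := by
  refine ⟨?_, ?_⟩
  · rw [BB_lift]; simp [coshDist]
  · have hx : 0 < x.1 2 := x.2
    simp only [lift]
    positivity

theorem farE_pair {V : Type} (G : SimpleGraph V) (hG : IsFarEuclidean G) (S T : Set V)
    (hST : ∀ u ∈ S, ∀ v ∈ T, u ≠ v ∧ ¬ G.Adj u v) (hS : ¬ (G.induce S).IsBipartite)
    (hT : ¬ (G.induce T).IsBipartite) : False := by
  obtain ⟨c, hc⟩ := hG
  obtain ⟨s, A, hs, A0, A1, AS, AA⟩ := periodic_walk G S hS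
  obtain ⟨t, B, ht, B0, B1, BT, BBadj⟩ := periodic_walk G T hT
  have hn : ∀ i j, B j ≠ A i ∧ ¬ G.Adj (A i) (B j) ∧ ¬ G.Adj (B j) (A i) := fun i j =>
    ⟨(hST _ (AS i) _ (BT j)).1.symm, (hST _ (AS i) _ (BT j)).2,
      fun h => (hST _ (AS i) _ (BT j)).2 h.symm⟩
  refine no_euclid s t hs ht (fun i => c (A i)) (fun j => c (B j)) (by rw [A0]) (by rw [A1])
    (by rw [B0]) (by rw [B1]) ?_ ?_ ?_ ?_
  · exact fun i j => hc _ _ _ (AA i) (hn i j).1 (hn i j).2.1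
  · exact fun i j => hc _ _ _ (AA i).symm (hn (i + 1) j).1 (hn (i + 1) j).2.1
  · exact fun i j => hc _ _ _ (BBadj j) (hn i j).1.symm (hn i j).2.2
  · exact fun i j => hc _ _ _ (BBadj j).symm (hn i (j + 1)).1.symm (hn i (j + 1)).2.2

theorem farH_pair {V : Type} (G : SimpleGraph V) (hG : IsFarHyperbolic G) (S T : Set V)
    (hST : ∀ u ∈ S, ∀ v ∈ T, u ≠ v ∧ ¬ G.Adj u v) (hS : ¬ (G.induce S).IsBipartite)
    (hT : ¬ (G.induce T).IsBipartite) : False := by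
  obtain ⟨c, hc⟩ := hG
  obtain ⟨s, A, hs, A0, A1, AS, AA⟩ := periodic_walk G S hS
  obtain ⟨t, B, ht, B0, B1, BT, BBadj⟩ := periodic_walk G T hT
  have hn : ∀ i j, B j ≠ A i ∧ ¬ G.Adj (A i) (B j) ∧ ¬ G.Adj (B j) (A i) := fun i j =>
    ⟨(hST _ (AS i) _ (BT j)).1.symm, (hST _ (AS i) _ (BT j)).2,
      fun h => (hST _ (AS i) _ (BT j)).2 h.symm⟩
  refine no_hyp s t hs ht (fun i => lift (c (A i))) (fun j => lift (c (B j)))
    (fun i => isPt_lift _) (fun j => isPt_lift _) (by rw [A0]) (by rw [A1])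
    (by rw [B0]) (by rw [B1]) ?_ ?_ ?_ ?_ <;> intro i j <;> rw [BB_lift, BB_lift]
  · exact hc _ _ _ (AA i) (hn i j).1 (hn i j).2.1
  · exact hc _ _ _ (AA i).symm (hn (i + 1) j).1 (hn (i + 1) j).2.1
  · exact hc _ _ _ (BBadj j) (hn i j).1.symm (hn i j).2.2
  · exact hc _ _ _ (BBadj j).symm (hn i (j + 1)).1.symm (hn i (j + 1)).2.2

theorem in_farE {n : ℕ} (G : SimpleGraph (Fin n)) (U : Set (Fin n))
    (hU : IsFarEuclidean (G.induce U)) : oddPackingIn G U ≤ 1 :=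
  in_le_one G U fun S T => farE_pair (G.induce U) hU S T

theorem in_farH {n : ℕ} (G : SimpleGraph (Fin n)) (U : Set (Fin n))
    (hU : IsFarHyperbolic (G.induce U)) : oddPackingIn G U ≤ 1 :=
  in_le_one G U fun S T => farH_pair (G.induce U) hU S T

theorem farE_of_coball {V : Type} {G : SimpleGraph V} (h : IsCoBall G) : IsFarEuclidean G := by
  obtain ⟨c, hadj⟩ := h
  refine ⟨c, fun v u w h1 h2 h3 => ?_⟩
  have h4 := (disjoint_closedBall_closedBall_iff zero_le_one zero_le_one).1 ((hadj v u h1.ne).1 h1)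
  by_contra hcon
  refine h3 ((hadj v w h2.symm).2 ((disjoint_closedBall_closedBall_iff zero_le_one
    zero_le_one).2 ?_))
  push Not at hcon
  exact lt_of_lt_of_le h4 hcon

end Vale.Agent.P305.H89
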