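import Vale.Agent.P305.R2.H89.SeqS
import Vale.Agent.P305.R2.H89.Far

/-! Far graphs of the three-dimensional sphere. -/

set_option autoImplicit false

namespace Vale.Agent.P305.H89

open Vale.Agent.P305 Vale.Agent.P305.H529 Vale.Agent.P305.H287
open scoped InnerProductSpace
open InnerProductGeometry

theorem cos_angle_unit {x y : E4} (hx : ‖x‖ = 1) (hy : ‖y‖ = 1) :
    Real.cos (angle x y) = ⟪x, y⟫_ℝ := by
  rw [cos_angle, hx, hy, mul_one, div_one]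

theorem inner_lt_of_angle {x y z u : E4} (hx : ‖x‖ = 1) (hy : ‖y‖ = 1) (hz : ‖z‖ = 1)
    (hu : ‖u‖ = 1) (h : angle x y < angle z u) : ⟪z, u⟫_ℝ < ⟪x, y⟫_ℝ := by
  rw [← cos_angle_unit hx hy, ← cos_angle_unit hz hu]
  exact Real.cos_lt_cos_of_nonneg_of_le_pi (angle_nonneg _ _) (angle_le_pi _ _) h

theorem inner_pos_of_angle {x y : E4} (hx : ‖x‖ = 1) (hy : ‖y‖ = 1)
    (h : angle x y < Real.pi / 2) : 0 < ⟪x, y⟫_ℝ := by
  rw [← cos_angle_unit hx hy]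
  exact Real.cos_pos_of_mem_Ioo ⟨by linarith [angle_nonneg x y, Real.pi_pos], h⟩

theorem farS_pair {V : Type} [Finite V] (G : SimpleGraph V) (hG : IsFarSpherical G) (S T : Set V)
    (hST : ∀ u ∈ S, ∀ v ∈ T, u ≠ v ∧ ¬ G.Adj u v) (hS : ¬ (G.induce S).IsBipartite)
    (hT : ¬ (G.induce T).IsBipartite) : False := by
  obtain ⟨c, hc1, hc⟩ := hG
  obtain ⟨s, A, hs, A0, A1, AS, AA⟩ := periodic_walk G S hS
  obtain ⟨t, B, ht, B0, B1, BT, BBadj⟩ := periodic_walk G T hT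
  have hn : ∀ i j, B j ≠ A i ∧ ¬ G.Adj (A i) (B j) ∧ ¬ G.Adj (B j) (A i) := fun i j =>
    ⟨(hST _ (AS i) _ (BT j)).1.symm, (hST _ (AS i) _ (BT j)).2,
      fun h => (hST _ (AS i) _ (BT j)).2 h.symm⟩
  have key : ∀ v u w, G.Adj v u → w ≠ v → ¬ G.Adj v w → ⟪c v, c u⟫_ℝ < ⟪c v, c w⟫_ℝ :=
    fun v u w h1 h2 h3 => inner_lt_of_angle (hc1 _) (hc1 _) (hc1 _) (hc1 _) (hc v u w h1 h2 h3).1
  have fin : ∀ A : ℕ → V, (Set.range fun i => c (A i)).Finite := fun A =>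
    (Set.finite_range c).subset (by rintro _ ⟨i, rfl⟩; exact ⟨_, rfl⟩)
  refine no_sphere s t hs ht (fun i => c (A i)) (fun j => c (B j)) (fun i => hc1 _)
    (fun j => hc1 _) (fin A) (fin B) (by rw [A0]) (by rw [A1]) (by rw [B0]) (by rw [B1]) ?_ ?_ ?_
    ?_ ?_
  · exact fun i j => inner_pos_of_angle (hc1 _) (hc1 _)
      (hc _ _ _ (AA i) (hn i j).1 (hn i j).2.1).2
  · exact fun i j => key _ _ _ (AA i) (hn i j).1 (hn i j).2.1
  · exact fun i j => key _ _ _ (AA i).symm (hn (i + 1) j).1 (hn (i + 1) j).2.1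
  · exact fun i j => key _ _ _ (BBadj j) (hn i j).1.symm (hn i j).2.2
  · exact fun i j => key _ _ _ (BBadj j).symm (hn i (j + 1)).1.symm (hn i (j + 1)).2.2

theorem in_farS {n : ℕ} (G : SimpleGraph (Fin n)) (U : Set (Fin n))
    (hU : IsFarSpherical (G.induce U)) : oddPackingIn G U ≤ 1 :=
  in_le_one G U fun S T => farS_pair (G.induce U) hU S T

theorem farS_of_sphere {V : Type} {G : SimpleGraph V} {ρ : ℝ} (hρ : ρ < Real.pi / 2)
    (h : IsSphereGraph ρ G) : IsFarSpherical G := by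
  obtain ⟨c, hc, hadj⟩ := h
  refine ⟨c, hc, fun v u w h1 h2 h3 => ?_⟩
  have h4 := (hadj v u h1.ne).1 h1
  have h5 := not_lt.1 fun h6 => h3 ((hadj v w h2.symm).2 h6)
  exact ⟨h5.trans_lt h4, h5.trans_lt hρ⟩

end Vale.Agent.P305.H89
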