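import Mathlib

/-! Two triples of points which are nearer to each other than to their neighbours: Euclidean
geometry. -/

set_option autoImplicit false

namespace Vale.Agent.P305.H89

open scoped InnerProductSpace

variable {E : Type*} [NormedAddCommGroup E] [InnerProductSpace ℝ E]

theorem comb_neg {x y α β : ℝ} (hα : 0 ≤ α) (hβ : 0 ≤ β) (h : α + β = 1) (hx : x < 0)
    (hy : y < 0) : α * x + β * y < 0 := by
  rcases hα.lt_or_eq with h1 | h1
  · nlinarith [mul_neg_of_pos_of_neg h1 hx, mul_nonneg hβ (by linarith : (0 : ℝ) ≤ -y)]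
  · have : β = 1 := by linarith
    rw [← h1, this]
    linarith

theorem comb_pos {x y α β : ℝ} (hα : 0 ≤ α) (hβ : 0 ≤ β) (h : α + β = 1) (hx : 0 < x)
    (hy : 0 < y) : 0 < α * x + β * y := by
  have := comb_neg hα hβ h (neg_neg_of_pos hx) (neg_neg_of_pos hy)
  linarith

theorem aff (x y b1 b2 : E) {γ δ : ℝ} (h : γ + δ = 1) :
    ‖x - (γ • b1 + δ • b2)‖ ^ 2 - ‖y - (γ • b1 + δ • b2)‖ ^ 2 =
      γ * (‖x - b1‖ ^ 2 - ‖y - b1‖ ^ 2) + δ * (‖x - b2‖ ^ 2 - ‖y - b2‖ ^ 2) := by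
  simp only [norm_sub_sq_real, inner_add_right, inner_smul_right]
  linear_combination (‖y‖ ^ 2 - ‖x‖ ^ 2) * h

theorem near_comb (x y b1 b2 : E) {γ δ : ℝ} (hγ : 0 ≤ γ) (hδ : 0 ≤ δ) (h : γ + δ = 1)
    (h1 : ‖y - b1‖ < ‖x - b1‖) (h2 : ‖y - b2‖ < ‖x - b2‖) :
    ‖y - (γ • b1 + δ • b2)‖ < ‖x - (γ • b1 + δ • b2)‖ := by
  have e1 : 0 < ‖x - b1‖ ^ 2 - ‖y - b1‖ ^ 2 := by
    have := pow_lt_pow_left₀ h1 (norm_nonneg _) two_ne_zero
    linarith
  have e2 : 0 < ‖x - b2‖ ^ 2 - ‖y - b2‖ ^ 2 := by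
    have := pow_lt_pow_left₀ h2 (norm_nonneg _) two_ne_zero
    linarith
  have e3 := comb_pos hγ hδ h e1 e2
  rw [← aff x y b1 b2 h] at e3
  exact lt_of_pow_lt_pow_left₀ 2 (norm_nonneg _) (by linarith)

theorem norm_comb_lt (a1 a2 q : E) {α β r : ℝ} (hα : 0 ≤ α) (hβ : 0 ≤ β) (h : α + β = 1)
    (h1 : ‖a1 - q‖ < r) (h2 : ‖a2 - q‖ < r) : ‖α • a1 + β • a2 - q‖ < r := by
  have e : α • a1 + β • a2 - q = α • (a1 - q) + β • (a2 - q) := by
    have : q = α • q + β • q := by rw [← add_smul, h, one_smul]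
    nth_rewrite 1 [this]
    module
  rw [e]
  refine lt_of_le_of_lt (norm_add_le _ _) ?_
  rw [norm_smul, norm_smul, Real.norm_of_nonneg hα, Real.norm_of_nonneg hβ]
  have h3 := comb_neg hα hβ h (by linarith : ‖a1 - q‖ - r < 0) (by linarith : ‖a2 - q‖ - r < 0)
  have h4 : α * ‖a1 - q‖ + β * ‖a2 - q‖ = (α * (‖a1 - q‖ - r) + β * (‖a2 - q‖ - r)) +
      (α + β) * r := by ring
  rw [h4, h, one_mul]
  linarith

/-- The second type. -/
theorem type_two (a p b q : E) (t : ℝ) (ht : 0 < t) (h : a - p = t • (q - b))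
    (h1 : ‖p - q‖ < ‖b - q‖) (h2 : ‖q - p‖ < ‖a - p‖) (h3 : ⟪a - q, p - b⟫_ℝ < 0) : False := by
  obtain ⟨u, hu⟩ : ∃ u, u = q - b := ⟨_, rfl⟩
  obtain ⟨d, hd⟩ : ∃ d, d = p - b := ⟨_, rfl⟩
  have e1 : a - q = d + (t - 1) • u := by
    have : a = p + t • (q - b) := by rw [← h]; abel
    rw [this, hd, hu]
    module
  rw [← hd, e1] at h3
  have e2 : p - q = d - u := by rw [hd, hu]; abel
  have e3 : b - q = -u := by rw [hu]; abel
  have e4 : q - p = u - d := by rw [hd, hu]; abel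
  rw [e2, e3, norm_neg] at h1
  rw [e4, h, ← hu] at h2
  have f1 := pow_lt_pow_left₀ h1 (norm_nonneg _) two_ne_zero
  have f2 := pow_lt_pow_left₀ h2 (norm_nonneg _) two_ne_zero
  rw [norm_sub_sq_real] at f1 f2
  rw [norm_smul, mul_pow, Real.norm_eq_abs, sq_abs] at f2
  rw [inner_add_left, real_inner_smul_left, real_inner_self_eq_norm_sq] at h3
  rw [real_inner_comm] at f2
  rw [real_inner_comm] at h3
  have hn : 0 ≤ ‖d + (t - 1) • u‖ ^ 2 := by positivity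
  rw [norm_add_sq_real, norm_smul, mul_pow, Real.norm_eq_abs, sq_abs, real_inner_smul_right] at hn
  have hcs := real_inner_mul_inner_self_le d u
  rw [real_inner_self_eq_norm_sq, real_inner_self_eq_norm_sq] at hcs
  set D := ‖d‖ ^ 2 with hD
  set U := ‖u‖ ^ 2 with hU
  set c := ⟪d, u⟫_ℝ with hc
  have hD0 : 0 ≤ D := by positivity
  have hU0 : 0 ≤ U := by positivity
  have hcpos : 0 < c := by linarith
  have hUpos : 0 < U := by
    rcases hU0.lt_or_eq with h5 | h5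
    · exact h5
    · exfalso
      rw [← h5, mul_zero] at hcs
      nlinarith
  have h6 : 0 < c + (t - 1) * U := by
    by_contra hneg
    push Not at hneg
    have h9 : 2 * t * (c + (t - 1) * U) = (2 * c + (t ^ 2 - 1) * U - D) +
        (D + 2 * ((t - 1) * c) + (t - 1) ^ 2 * U) := by ring
    have h10 : 2 * t * (c + (t - 1) * U) ≤ 0 :=
      mul_nonpos_of_nonneg_of_nonpos (by linarith) hneg
    linarith
  have h7 : (D + (t - 1) * c) * U = (D * U - c * c) + c * (c + (t - 1) * U) := by ring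
  have h8 : 0 < c * (c + (t - 1) * U) := mul_pos hcpos h6
  nlinarith

theorem six_pos (a a1 a2 b b1 b2 : E) (p1 : ‖a1 - b‖ < ‖a1 - a‖) (p2 : ‖a2 - b‖ < ‖a2 - a‖)
    (q1 : ‖b1 - a‖ < ‖b1 - b‖) (q2 : ‖b2 - a‖ < ‖b2 - b‖) (α β γ δ : ℝ) (hα : 0 ≤ α)
    (hβ : 0 ≤ β) (hγ : 0 ≤ γ) (hδ : 0 ≤ δ) (hne : α ≠ 0 ∨ β ≠ 0 ∨ γ ≠ 0 ∨ δ ≠ 0) :
    α • (a - a1) + β • (a - a2) ≠ γ • (b - b1) + δ • (b - b2) := by
  intro h
  have key : ∀ x y z : E, ‖z - y‖ < ‖z - x‖ → 0 < ⟪x - z, x - y⟫_ℝ := by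
    intro x y z hz
    have h1 := pow_lt_pow_left₀ hz (norm_nonneg _) two_ne_zero
    have h2 : 2 * ⟪x - z, x - y⟫_ℝ = ‖z - x‖ ^ 2 - ‖z - y‖ ^ 2 + ‖x - y‖ ^ 2 := by
      rw [norm_sub_sq_real, norm_sub_sq_real, norm_sub_sq_real, inner_sub_left, inner_sub_right,
        inner_sub_right, real_inner_self_eq_norm_sq, real_inner_comm x z]
      ring
    nlinarith [sq_nonneg ‖x - y‖]
  have k1 := key a b a1 p1
  have k2 := key a b a2 p2
  have k3 := key b a b1 q1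
  have k4 := key b a b2 q2
  have h1 := congrArg (fun z => ⟪z, a - b⟫_ℝ) h
  simp only [inner_add_left, real_inner_smul_left] at h1
  have e : ∀ z : E, ⟪z, a - b⟫_ℝ = -⟪z, b - a⟫_ℝ := fun z => by
    rw [← inner_neg_right, neg_sub]
  rw [e (b - b1), e (b - b2)] at h1
  have n1 := mul_nonneg hα k1.le
  have n2 := mul_nonneg hβ k2.le
  have n3 := mul_nonneg hγ k3.le
  have n4 := mul_nonneg hδ k4.le
  have m1 : α * ⟪a - a1, a - b⟫_ℝ = 0 := by linarith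
  have m2 : β * ⟪a - a2, a - b⟫_ℝ = 0 := by linarith
  have m3 : γ * ⟪b - b1, b - a⟫_ℝ = 0 := by linarith
  have m4 : δ * ⟪b - b2, b - a⟫_ℝ = 0 := by linarith
  rcases hne with h5 | h5 | h5 | h5
  · exact h5 ((mul_eq_zero.1 m1).resolve_right k1.ne')
  · exact h5 ((mul_eq_zero.1 m2).resolve_right k2.ne')
  · exact h5 ((mul_eq_zero.1 m3).resolve_right k3.ne')
  · exact h5 ((mul_eq_zero.1 m4).resolve_right k4.ne')

theorem six_neg (a a1 a2 b b1 b2 : E) (p1 : ‖a1 - b‖ < ‖a1 - a‖) (p2 : ‖a2 - b‖ < ‖a2 - a‖)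
    (q1 : ‖b1 - a‖ < ‖b1 - b‖) (q2 : ‖b2 - a‖ < ‖b2 - b‖)
    (r1 : ‖a - b‖ < ‖a - a1‖) (r2 : ‖a - b‖ < ‖a - a2‖)
    (s11 : ‖a1 - b1‖ < ‖b - b1‖) (s12 : ‖a1 - b2‖ < ‖b - b2‖)
    (s21 : ‖a2 - b1‖ < ‖b - b1‖) (s22 : ‖a2 - b2‖ < ‖b - b2‖)
    (t11 : ‖b1 - a1‖ < ‖a - a1‖) (t12 : ‖b1 - a2‖ < ‖a - a2‖)
    (t21 : ‖b2 - a1‖ < ‖a - a1‖) (t22 : ‖b2 - a2‖ < ‖a - a2‖) (α β γ δ : ℝ) (hα : 0 ≤ α)
    (hβ : 0 ≤ β) (hγ : 0 ≤ γ) (hδ : 0 ≤ δ) (hne : α ≠ 0 ∨ β ≠ 0 ∨ γ ≠ 0 ∨ δ ≠ 0) :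
    α • (a - a1) + β • (a - a2) ≠ -(γ • (b - b1) + δ • (b - b2)) := by
  intro h
  have hA : 0 < α + β := by
    rcases (add_nonneg hα hβ).lt_or_eq with h1 | h1
    · exact h1
    · exfalso
      have hα0 : α = 0 := by linarith
      have hβ0 : β = 0 := by linarith
      rw [hα0, hβ0] at h hne
      refine six_pos a a1 a2 b b1 b2 p1 p2 q1 q2 0 0 γ δ le_rfl le_rfl hγ hδ hne ?_
      have h2 : γ • (b - b1) + δ • (b - b2) = 0 := by
        have : (0 : ℝ) • (a - a1) + (0 : ℝ) • (a - a2) = 0 := by simp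
        rw [this] at h
        exact (neg_eq_zero.1 h.symm)
      rw [h2]; simp
  have hC : 0 < γ + δ := by
    rcases (add_nonneg hγ hδ).lt_or_eq with h1 | h1
    · exact h1
    · exfalso
      have hα0 : γ = 0 := by linarith
      have hβ0 : δ = 0 := by linarith
      rw [hα0, hβ0] at h
      refine six_pos a a1 a2 b b1 b2 p1 p2 q1 q2 α β 0 0 hα hβ le_rfl le_rfl ?_ ?_
      · by_contra hcon
        push Not at hcon
        linarith [hcon.1, hcon.2.1]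
      · rw [h]; simp
  obtain ⟨α', hα'⟩ : ∃ x, x = α / (α + β) := ⟨_, rfl⟩
  obtain ⟨β', hβ'⟩ : ∃ x, x = β / (α + β) := ⟨_, rfl⟩
  obtain ⟨γ', hγ'⟩ : ∃ x, x = γ / (γ + δ) := ⟨_, rfl⟩
  obtain ⟨δ', hδ'⟩ : ∃ x, x = δ / (γ + δ) := ⟨_, rfl⟩
  have nα : 0 ≤ α' := by rw [hα']; positivity
  have nβ : 0 ≤ β' := by rw [hβ']; positivity
  have nγ : 0 ≤ γ' := by rw [hγ']; positivity
  have nδ : 0 ≤ δ' := by rw [hδ']; positivity
  have sA : α' + β' = 1 := by rw [hα', hβ']; field_simp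
  have sC : γ' + δ' = 1 := by rw [hγ', hδ']; field_simp
  have iα : α = (α + β) * α' := by rw [hα']; field_simp
  have iβ : β = (α + β) * β' := by rw [hβ']; field_simp
  have iγ : γ = (γ + δ) * γ' := by rw [hγ']; field_simp
  have iδ : δ = (γ + δ) * δ' := by rw [hδ']; field_simp
  obtain ⟨p, hp⟩ : ∃ p, p = α' • a1 + β' • a2 := ⟨_, rfl⟩
  obtain ⟨q, hq⟩ : ∃ q, q = γ' • b1 + δ' • b2 := ⟨_, rfl⟩
  have e1 : α • (a - a1) + β • (a - a2) = (α + β) • (a - p) := by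
    rw [hp]
    have : (α + β) • (a - (α' • a1 + β' • a2)) =
        (α + β) • a - (((α + β) * α') • a1 + ((α + β) * β') • a2) := by module
    rw [this, ← iα, ← iβ]
    module
  have e2 : γ • (b - b1) + δ • (b - b2) = (γ + δ) • (b - q) := by
    rw [hq]
    have : (γ + δ) • (b - (γ' • b1 + δ' • b2)) =
        (γ + δ) • b - (((γ + δ) * γ') • b1 + ((γ + δ) * δ') • b2) := by module
    rw [this, ← iγ, ← iδ]
    module
  rw [e1, e2] at h
  have e3 : a - p = ((γ + δ) / (α + β)) • (q - b) := by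
    have h5 : (α + β) • (a - p) = (γ + δ) • (q - b) := by
      rw [h, ← smul_neg, neg_sub]
    rw [div_eq_inv_mul, mul_smul, ← h5, smul_smul, inv_mul_cancel₀ hA.ne', one_smul]
  refine type_two a p b q _ (div_pos hC hA) e3 ?_ ?_ ?_
  · rw [hp]
    refine norm_comb_lt _ _ _ nα nβ sA ?_ ?_
    · rw [hq]; exact near_comb _ _ _ _ nγ nδ sC s11 s12
    · rw [hq]; exact near_comb _ _ _ _ nγ nδ sC s21 s22
  · rw [hq]
    refine norm_comb_lt _ _ _ nγ nδ sC ?_ ?_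
    · rw [hp]; exact near_comb _ _ _ _ nα nβ sA t11 t12
    · rw [hp]; exact near_comb _ _ _ _ nα nβ sA t21 t22
  · have key : ∀ x y : E, ‖a - b‖ < ‖a - x‖ → ‖x - y‖ < ‖b - y‖ → ⟪a - y, x - b⟫_ℝ < 0 := by
      intro x y h1 h2
      have h3 := pow_lt_pow_left₀ h1 (norm_nonneg _) two_ne_zero
      have h4 := pow_lt_pow_left₀ h2 (norm_nonneg _) two_ne_zero
      have h5 : 2 * ⟪a - y, x - b⟫_ℝ = (‖a - b‖ ^ 2 - ‖a - x‖ ^ 2) +
          (‖x - y‖ ^ 2 - ‖b - y‖ ^ 2) := by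
        rw [norm_sub_sq_real, norm_sub_sq_real, norm_sub_sq_real, norm_sub_sq_real,
          inner_sub_left, inner_sub_right, inner_sub_right, real_inner_comm y x,
          real_inner_comm y b]
        ring
      linarith
    have g : ∀ y : E, ⟪a - y, a1 - b⟫_ℝ < 0 → ⟪a - y, a2 - b⟫_ℝ < 0 → ⟪a - y, p - b⟫_ℝ < 0 := by
      intro y h1 h2
      have h3 : p - b = α' • (a1 - b) + β' • (a2 - b) := by
        have : b = α' • b + β' • b := by rw [← add_smul, sA, one_smul]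
        rw [hp]
        nth_rewrite 1 [this]
        module
      rw [h3, inner_add_right, real_inner_smul_right, real_inner_smul_right]
      exact comb_neg nα nβ sA h1 h2
    have h1 := g b1 (key a1 b1 r1 s11) (key a2 b1 r2 s21)
    have h2 := g b2 (key a1 b2 r1 s12) (key a2 b2 r2 s22)
    have h3 : a - q = γ' • (a - b1) + δ' • (a - b2) := by
      have : a = γ' • a + δ' • a := by rw [← add_smul, sC, one_smul]
      rw [hq]
      nth_rewrite 1 [this]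
      module
    rw [h3, inner_add_left, real_inner_smul_left, real_inner_smul_left]
    exact comb_neg nγ nδ sC h1 h2

end Vale.Agent.P305.H89
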