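import Mathlib

/-! Two triples of points which are nearer to each other than to their neighbours: hyperbolic
geometry, in the hyperboloid model. -/

set_option autoImplicit false

namespace Vale.Agent.P305.H89

open scoped InnerProductSpace

theorem pos_prod {P1 P2 Q1 Q2 : ℝ} (hP1 : 0 < P1) (hQ1 : 0 < Q1) (hP : 0 < P1 ^ 2 - P2 ^ 2)
    (hQ : 0 < Q1 ^ 2 - Q2 ^ 2) : 0 < P1 * Q1 - P2 * Q2 := by
  have h1 : |P2| < P1 := abs_lt_of_sq_lt_sq (by linarith) hP1.le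
  have h2 : |Q2| < Q1 := abs_lt_of_sq_lt_sq (by linarith) hQ1.le
  have h3 : P2 * Q2 ≤ |P2| * |Q2| := by rw [← abs_mul]; exact le_abs_self _
  have h4 : |P2| * |Q2| < P1 * Q1 := mul_lt_mul'' h1 h2 (abs_nonneg _) (abs_nonneg _)
  linarith

theorem slope (B1 B2 P1 P2 Q1 Q2 θ : ℝ) (hB : B1 ^ 2 - B2 ^ 2 = 1) (hB1 : 0 < B1) (hP1 : 0 < P1)
    (hQ1 : 0 < Q1) (hθ : 0 < θ) (hP : θ ^ 2 ≤ P1 ^ 2 - P2 ^ 2) (hQ : 0 < Q1 ^ 2 - Q2 ^ 2)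
    (h : P1 * Q1 - P2 * Q2 < θ * (B1 * Q1 - B2 * Q2)) (hU : 0 < B1 * Q2 - B2 * Q1) :
    0 < B1 * P2 - P1 * B2 := by
  by_contra hcon
  push Not at hcon
  have hPP : 0 < P1 ^ 2 - P2 ^ 2 := lt_of_lt_of_le (by positivity) hP
  have hpq := pos_prod hP1 hQ1 hPP hQ
  have hbq : 0 < B1 * Q1 - B2 * Q2 := pos_prod hB1 hQ1 (by rw [hB]; exact one_pos) hQ
  obtain ⟨T, hT⟩ : ∃ T, T = P1 * B2 - P2 * B1 := ⟨_, rfl⟩
  obtain ⟨U, hU'⟩ : ∃ U, U = B1 * Q2 - B2 * Q1 := ⟨_, rfl⟩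
  obtain ⟨W, hW⟩ : ∃ W, W = P1 * Q2 - P2 * Q1 := ⟨_, rfl⟩
  have hT0 : 0 ≤ T := by rw [hT]; linarith
  have hU0 : 0 < U := by rw [hU']; exact hU
  have s1 : (P1 * Q1 - P2 * Q2) ^ 2 < θ ^ 2 * (B1 * Q1 - B2 * Q2) ^ 2 := by
    rw [← mul_pow]
    exact pow_lt_pow_left₀ h hpq.le two_ne_zero
  have s2 : θ ^ 2 * (B1 * Q1 - B2 * Q2) ^ 2 ≤
      (P1 ^ 2 - P2 ^ 2) * (B1 * Q1 - B2 * Q2) ^ 2 :=
    mul_le_mul_of_nonneg_right hP (sq_nonneg _)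
  have e1 : (B1 * Q1 - B2 * Q2) ^ 2 = (Q1 ^ 2 - Q2 ^ 2) + U ^ 2 := by
    have : (B1 * Q1 - B2 * Q2) ^ 2 = (B1 ^ 2 - B2 ^ 2) * (Q1 ^ 2 - Q2 ^ 2) + U ^ 2 := by
      rw [hU']; ring
    rw [this, hB, one_mul]
  have e2 : (P1 * Q1 - P2 * Q2) ^ 2 = (P1 ^ 2 - P2 ^ 2) * (Q1 ^ 2 - Q2 ^ 2) + W ^ 2 := by
    rw [hW]; ring
  have e3 : W ^ 2 = U ^ 2 * (P1 ^ 2 - P2 ^ 2) + 2 * U * T * (P1 * Q1 - P2 * Q2) +
      T ^ 2 * (Q1 ^ 2 - Q2 ^ 2) := by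
    have f1 : B1 * W = P1 * U + Q1 * T := by rw [hU', hT, hW]; ring
    have f2 : B2 * W = P2 * U + Q2 * T := by rw [hU', hT, hW]; ring
    have f3 : W ^ 2 = (B1 * W) ^ 2 - (B2 * W) ^ 2 := by
      have : (B1 * W) ^ 2 - (B2 * W) ^ 2 = (B1 ^ 2 - B2 ^ 2) * W ^ 2 := by ring
      rw [this, hB, one_mul]
    rw [f3, f1, f2]; ring
  have s3 : 0 ≤ 2 * U * T * (P1 * Q1 - P2 * Q2) + T ^ 2 * (Q1 ^ 2 - Q2 ^ 2) := by positivity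
  rw [e1] at s1 s2
  rw [e2, e3] at s1
  nlinarith

theorem plane (A1 A2 B1 B2 P1 P2 Q1 Q2 θ η : ℝ) (hAA : A1 ^ 2 - A2 ^ 2 = 1)
    (hBB : B1 ^ 2 - B2 ^ 2 = 1) (hA1p : 0 < A1) (hB1p : 0 < B1) (hP1p : 0 < P1) (hQ1p : 0 < Q1)
    (hθ : 0 < θ) (hη : 0 < η) (R1 : θ ^ 2 ≤ P1 ^ 2 - P2 ^ 2) (R2 : η ^ 2 ≤ Q1 ^ 2 - Q2 ^ 2)
    (g1 : P1 * Q1 - P2 * Q2 < θ * (B1 * Q1 - B2 * Q2))
    (g2 : P1 * Q1 - P2 * Q2 < η * (A1 * P1 - A2 * P2))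
    (g3 : θ * (A1 * B1 - A2 * B2) < A1 * P1 - A2 * P2)
    (u1 : 0 < B1 * Q2 - B2 * Q1) (u2 : 0 < A2 * P1 - A1 * P2) : False := by
  have hPPp : 0 < P1 ^ 2 - P2 ^ 2 := lt_of_lt_of_le (by positivity) R1
  have hQQp : 0 < Q1 ^ 2 - Q2 ^ 2 := lt_of_lt_of_le (by positivity) R2
  have hab : 0 < A1 * B1 - A2 * B2 :=
    pos_prod hA1p hB1p (by rw [hAA]; exact one_pos) (by rw [hBB]; exact one_pos)
  have hbq0 : 0 < B1 * Q1 - B2 * Q2 :=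
    pos_prod hB1p hQ1p (by rw [hBB]; exact one_pos) hQQp
  have c1 : 0 < B1 * P2 - P1 * B2 :=
    slope B1 B2 P1 P2 Q1 Q2 θ hBB hB1p hP1p hQ1p hθ R1 hQQp g1 u1
  have c2 : 0 < A1 * (-Q2) - Q1 * (-A2) := by
    refine slope A1 (-A2) Q1 (-Q2) P1 (-P2) η (by rw [neg_sq]; exact hAA) hA1p hQ1p hP1p hη
      (by rw [neg_sq]; exact R2) (by rw [neg_sq]; exact hPPp) ?_ ?_
    · have e1 : Q1 * P1 - -Q2 * -P2 = P1 * Q1 - P2 * Q2 := by ring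
      have e2 : A1 * P1 - -A2 * -P2 = A1 * P1 - A2 * P2 := by ring
      rw [e1, e2]; exact g2
    · have : A1 * -P2 - -A2 * P1 = A2 * P1 - A1 * P2 := by ring
      rw [this]; exact u2
  have d1 : θ * (A1 * B1 - A2 * B2) * (B1 * Q1 - B2 * Q2) <
      (A1 * P1 - A2 * P2) * (B1 * Q1 - B2 * Q2) := mul_lt_mul_of_pos_right g3 hbq0
  have d2 : (P1 * Q1 - P2 * Q2) * (A1 * B1 - A2 * B2) <
      θ * (B1 * Q1 - B2 * Q2) * (A1 * B1 - A2 * B2) := mul_lt_mul_of_pos_right g1 hab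
  have d4 : θ * (B1 * Q1 - B2 * Q2) * (A1 * B1 - A2 * B2) =
      θ * (A1 * B1 - A2 * B2) * (B1 * Q1 - B2 * Q2) := by ring
  have d3 : (B1 * P2 - P1 * B2) * (A1 * Q2 - A2 * Q1) =
      (A1 * P1 - A2 * P2) * (B1 * Q1 - B2 * Q2) -
      (P1 * Q1 - P2 * Q2) * (A1 * B1 - A2 * B2) := by ring
  have c3 : 0 < (B1 * P2 - P1 * B2) * (A1 * Q2 - A2 * Q1) := by
    rw [d3]; linarith
  have c4 : (B1 * P2 - P1 * B2) * (A1 * Q2 - A2 * Q1) < 0 :=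
    mul_neg_of_pos_of_neg c1 (by linarith)
  linarith

theorem real_lemma (l m A1 A2 B1 B2 ν k θ η : ℝ) (hl : 0 < l) (hm : 0 < m) (hν0 : 0 < ν)
    (hθ : 0 < θ) (hη : 0 < η) (hAA : A1 ^ 2 - A2 ^ 2 = 1)
    (hBB : B1 ^ 2 - B2 ^ 2 = 1) (hA1p : 0 < A1) (hB1p : 0 < B1)
    (hG : A1 * B1 ≤ k + A2 * B2)
    (h1 : l * m * k - l * (ν * A2) + m * (ν * B2) + ν ^ 2 < θ * (m - ν * B2))
    (h2 : l * m * k - l * (ν * A2) + m * (ν * B2) + ν ^ 2 < η * (l + ν * A2))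
    (h3 : θ * k < l + ν * A2) (R1 : θ ^ 2 ≤ l ^ 2 + 2 * l * (ν * A2) - ν ^ 2)
    (R2 : η ^ 2 ≤ m ^ 2 - 2 * m * (ν * B2) - ν ^ 2) : False := by
  have hPP : (l * A1) ^ 2 - (l * A2 - ν) ^ 2 = l ^ 2 + 2 * l * (ν * A2) - ν ^ 2 := by
    linear_combination l ^ 2 * hAA
  have hQQ : (m * B1) ^ 2 - (m * B2 + ν) ^ 2 = m ^ 2 - 2 * m * (ν * B2) - ν ^ 2 := by
    linear_combination m ^ 2 * hBB
  have hbq : B1 * (m * B1) - B2 * (m * B2 + ν) = m - ν * B2 := by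
    linear_combination m * hBB
  have hap : A1 * (l * A1) - A2 * (l * A2 - ν) = l + ν * A2 := by
    linear_combination l * hAA
  have hR : l * A1 * (m * B1) - (l * A2 - ν) * (m * B2 + ν) ≤
      l * m * k - l * (ν * A2) + m * (ν * B2) + ν ^ 2 := by
    have h4 : l * m * (A1 * B1) ≤ l * m * (k + A2 * B2) :=
      mul_le_mul_of_nonneg_left hG (by positivity)
    have h5 : l * A1 * (m * B1) - (l * A2 - ν) * (m * B2 + ν) =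
        l * m * (A1 * B1) - l * m * (A2 * B2) - l * (ν * A2) + m * (ν * B2) + ν ^ 2 := by ring
    rw [h5]; linarith
  refine plane A1 A2 B1 B2 (l * A1) (l * A2 - ν) (m * B1) (m * B2 + ν) θ η hAA hBB hA1p hB1p
    (by positivity) (by positivity) hθ hη (by rw [hPP]; exact R1) (by rw [hQQ]; exact R2) ?_ ?_ ?_
    ?_ ?_
  · rw [hbq]; exact lt_of_le_of_lt hR h1
  · rw [hap]; exact lt_of_le_of_lt hR h2
  · rw [hap]
    refine lt_of_le_of_lt (mul_le_mul_of_nonneg_left ?_ hθ.le) h3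
    linarith
  · have : B1 * (m * B2 + ν) - B2 * (m * B1) = ν * B1 := by ring
    rw [this]; positivity
  · have : A2 * (l * A1) - A1 * (l * A2 - ν) = ν * A1 := by ring
    rw [this]; positivity

variable {E : Type*} [NormedAddCommGroup E] [InnerProductSpace ℝ E]

/-- The Lorentz form; `cosh` of the hyperbolic distance on the hyperboloid. -/
noncomputable def BB (x y : ℝ × E) : ℝ := x.1 * y.1 - ⟪x.2, y.2⟫_ℝ

theorem BB_comm (x y : ℝ × E) : BB x y = BB y x := by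
  unfold BB; rw [real_inner_comm, mul_comm]

theorem BB_add_left (x y z : ℝ × E) : BB (x + y) z = BB x z + BB y z := by
  simp only [BB, Prod.fst_add, Prod.snd_add, inner_add_left]; ring

theorem BB_sub_left (x y z : ℝ × E) : BB (x - y) z = BB x z - BB y z := by
  simp only [BB, Prod.fst_sub, Prod.snd_sub, inner_sub_left]; ring

theorem BB_smul_left (c : ℝ) (x z : ℝ × E) : BB (c • x) z = c * BB x z := by
  simp only [BB, Prod.smul_fst, Prod.smul_snd, real_inner_smul_left, smul_eq_mul]; ring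

theorem BB_add_right (x y z : ℝ × E) : BB z (x + y) = BB z x + BB z y := by
  rw [BB_comm, BB_add_left, BB_comm x, BB_comm y]

theorem BB_sub_right (x y z : ℝ × E) : BB z (x - y) = BB z x - BB z y := by
  rw [BB_comm, BB_sub_left, BB_comm x, BB_comm y]

theorem BB_smul_right (c : ℝ) (x z : ℝ × E) : BB z (c • x) = c * BB z x := by
  rw [BB_comm, BB_smul_left, BB_comm x]

/-- Points of the hyperboloid. -/
def IsPt (x : ℝ × E) : Prop := BB x x = 1 ∧ 0 < x.1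

theorem gram {a b : ℝ × E} (ha : IsPt a) (hb : IsPt b) (e : E) (he : ‖e‖ = 1) :
    √(1 + ⟪a.2, e⟫_ℝ ^ 2) * √(1 + ⟪b.2, e⟫_ℝ ^ 2) ≤ BB a b + ⟪a.2, e⟫_ℝ * ⟪b.2, e⟫_ℝ := by
  obtain ⟨s, hs⟩ : ∃ s, s = ⟪a.2, e⟫_ℝ := ⟨_, rfl⟩
  obtain ⟨t, ht⟩ : ∃ t, t = ⟪b.2, e⟫_ℝ := ⟨_, rfl⟩
  obtain ⟨x, hx⟩ : ∃ x, x = a.2 - s • e := ⟨_, rfl⟩
  obtain ⟨y, hy⟩ : ∃ y, y = b.2 - t • e := ⟨_, rfl⟩
  have hee : ⟪e, e⟫_ℝ = 1 := by rw [real_inner_self_eq_norm_sq, he, one_pow]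
  have e1 : ⟪x, y⟫_ℝ = ⟪a.2, b.2⟫_ℝ - s * t := by
    rw [hx, hy]
    simp only [inner_sub_left, inner_sub_right, real_inner_smul_left, real_inner_smul_right, hee]
    rw [real_inner_comm b.2 e, ← hs, ← ht]; ring
  have e2 : ‖x‖ ^ 2 = ⟪a.2, a.2⟫_ℝ - s ^ 2 := by
    rw [← real_inner_self_eq_norm_sq, hx]
    simp only [inner_sub_left, inner_sub_right, real_inner_smul_left, real_inner_smul_right, hee]
    rw [real_inner_comm a.2 e, ← hs]; ring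
  have e3 : ‖y‖ ^ 2 = ⟪b.2, b.2⟫_ℝ - t ^ 2 := by
    rw [← real_inner_self_eq_norm_sq, hy]
    simp only [inner_sub_left, inner_sub_right, real_inner_smul_left, real_inner_smul_right, hee]
    rw [real_inner_comm b.2 e, ← ht]; ring
  have ha1 := ha.1
  have hb1 := hb.1
  unfold BB at ha1 hb1
  rw [← hs, ← ht]
  obtain ⟨A, hA⟩ : ∃ A, A = √(1 + s ^ 2) := ⟨_, rfl⟩
  obtain ⟨B, hB⟩ : ∃ B, B = √(1 + t ^ 2) := ⟨_, rfl⟩
  have hA0 : 0 ≤ A := by rw [hA]; positivity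
  have hB0 : 0 ≤ B := by rw [hB]; positivity
  have hA2 : A ^ 2 = 1 + s ^ 2 := by rw [hA, Real.sq_sqrt (by positivity)]
  have hB2 : B ^ 2 = 1 + t ^ 2 := by rw [hB, Real.sq_sqrt (by positivity)]
  rw [← hA, ← hB]
  have f1 : a.1 ^ 2 = A ^ 2 + ‖x‖ ^ 2 := by rw [hA2, e2]; linarith
  have f2 : b.1 ^ 2 = B ^ 2 + ‖y‖ ^ 2 := by rw [hB2, e3]; linarith
  have f3 : A * B + ‖x‖ * ‖y‖ ≤ a.1 * b.1 := by
    have h1 : (A * B + ‖x‖ * ‖y‖) ^ 2 ≤ (a.1 * b.1) ^ 2 := by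
      rw [mul_pow, f1, f2]
      nlinarith [sq_nonneg (A * ‖y‖ - B * ‖x‖)]
    exact le_of_sq_le_sq h1 (mul_nonneg ha.2.le hb.2.le)
  have f4 := real_inner_le_norm x y
  rw [e1] at f4
  unfold BB
  linarith

theorem one_le_BB {a b : ℝ × E} (ha : IsPt a) (hb : IsPt b) : 1 ≤ BB a b := by
  have ha1 := ha.1
  have hb1 := hb.1
  unfold BB at ha1 hb1
  rw [real_inner_self_eq_norm_sq] at ha1 hb1
  have h1 : (1 + ‖a.2‖ * ‖b.2‖) ^ 2 ≤ (a.1 * b.1) ^ 2 := by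
    have f1 : a.1 ^ 2 = 1 + ‖a.2‖ ^ 2 := by linarith
    have f2 : b.1 ^ 2 = 1 + ‖b.2‖ ^ 2 := by linarith
    rw [mul_pow, f1, f2]
    nlinarith [sq_nonneg (‖a.2‖ - ‖b.2‖)]
  have h2 := le_of_sq_le_sq h1 (mul_nonneg ha.2.le hb.2.le)
  have h3 := real_inner_le_norm a.2 b.2
  unfold BB
  linarith

end Vale.Agent.P305.H89
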