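import Vale.Agent.P305.R2.H89.Hyp

/-! Two triples of points of hyperbolic space which are nearer to each other than to their
neighbours. -/

set_option autoImplicit false

namespace Vale.Agent.P305.H89

open scoped InnerProductSpace

variable {E : Type*} [NormedAddCommGroup E] [InnerProductSpace ℝ E]

theorem lin_lt {γ δ x1 x2 y1 y2 : ℝ} (hγ : 0 ≤ γ) (hδ : 0 ≤ δ) (h : 0 < γ + δ) (h1 : x1 < y1)
    (h2 : x2 < y2) : γ * x1 + δ * x2 < γ * y1 + δ * y2 := by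
  rcases hγ.lt_or_eq with h3 | h3
  · have e1 := mul_lt_mul_of_pos_left h1 h3
    have e2 := mul_le_mul_of_nonneg_left h2.le hδ
    linarith
  · have hδ0 : 0 < δ := by linarith
    have e1 := mul_lt_mul_of_pos_left h2 hδ0
    rw [← h3]; linarith

theorem sq_le_form {α β x : ℝ} (hα : 0 ≤ α) (hβ : 0 ≤ β) (hx : 1 ≤ x) :
    (α + β) ^ 2 ≤ α * (α * 1 + β * x) + β * (α * x + β * 1) := by
  have h1 := mul_nonneg (mul_nonneg hα hβ) (by linarith : 0 ≤ x - 1)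
  have h2 : α * (α * 1 + β * x) + β * (α * x + β * 1) = (α + β) ^ 2 + 2 * (α * β * (x - 1)) := by
    ring
  rw [h2]; linarith

theorem hyp_pos (a a1 a2 b b1 b2 : ℝ × E) (ha : IsPt a) (hb : IsPt b)
    (p1 : BB a1 b < BB a1 a) (p2 : BB a2 b < BB a2 a)
    (q1 : BB b1 a < BB b1 b) (q2 : BB b2 a < BB b2 b) (l α β m γ δ : ℝ) (hl : 0 ≤ l)
    (hα : 0 ≤ α) (hβ : 0 ≤ β) (hm : 0 ≤ m) (hγ : 0 ≤ γ) (hδ : 0 ≤ δ)
    (hne : α ≠ 0 ∨ β ≠ 0 ∨ γ ≠ 0 ∨ δ ≠ 0) :
    l • a - (α • a1 + β • a2) ≠ m • b - (γ • b1 + δ • b2) := by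
  intro h
  have h1 := congrArg (fun z => BB z (a - b)) h
  simp only [BB_sub_left, BB_add_left, BB_smul_left, BB_sub_right] at h1
  rw [ha.1, hb.1, BB_comm b a] at h1
  have hk := one_le_BB ha hb
  have n0 := mul_nonneg hl (by linarith : 0 ≤ BB a b - 1)
  have n1 := mul_nonneg hα (by linarith : 0 ≤ BB a1 a - BB a1 b)
  have n2 := mul_nonneg hβ (by linarith : 0 ≤ BB a2 a - BB a2 b)
  have n3 := mul_nonneg hm (by linarith : 0 ≤ BB a b - 1)
  have n4 := mul_nonneg hγ (by linarith : 0 ≤ BB b1 b - BB b1 a)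
  have n5 := mul_nonneg hδ (by linarith : 0 ≤ BB b2 b - BB b2 a)
  have m1 : α * (BB a1 a - BB a1 b) = 0 := by linarith
  have m2 : β * (BB a2 a - BB a2 b) = 0 := by linarith
  have m4 : γ * (BB b1 b - BB b1 a) = 0 := by linarith
  have m5 : δ * (BB b2 b - BB b2 a) = 0 := by linarith
  rcases hne with h5 | h5 | h5 | h5
  · exact h5 ((mul_eq_zero.1 m1).resolve_right (by linarith : 0 < BB a1 a - BB a1 b).ne')
  · exact h5 ((mul_eq_zero.1 m2).resolve_right (by linarith : 0 < BB a2 a - BB a2 b).ne')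
  · exact h5 ((mul_eq_zero.1 m4).resolve_right (by linarith : 0 < BB b1 b - BB b1 a).ne')
  · exact h5 ((mul_eq_zero.1 m5).resolve_right (by linarith : 0 < BB b2 b - BB b2 a).ne')

theorem hyp_neg (a a1 a2 b b1 b2 : ℝ × E) (ha : IsPt a) (ha1 : IsPt a1) (ha2 : IsPt a2)
    (hb : IsPt b) (hb1 : IsPt b1) (hb2 : IsPt b2)
    (p1 : BB a1 b < BB a1 a) (p2 : BB a2 b < BB a2 a)
    (q1 : BB b1 a < BB b1 b) (q2 : BB b2 a < BB b2 b)
    (r1 : BB a b < BB a a1) (r2 : BB a b < BB a a2)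
    (s11 : BB a1 b1 < BB b b1) (s12 : BB a1 b2 < BB b b2)
    (s21 : BB a2 b1 < BB b b1) (s22 : BB a2 b2 < BB b b2)
    (t11 : BB b1 a1 < BB a a1) (t12 : BB b1 a2 < BB a a2)
    (t21 : BB b2 a1 < BB a a1) (t22 : BB b2 a2 < BB a a2) (l α β m γ δ : ℝ) (hl : 0 ≤ l)
    (hα : 0 ≤ α) (hβ : 0 ≤ β) (hm : 0 ≤ m) (hγ : 0 ≤ γ) (hδ : 0 ≤ δ)
    (hne : α ≠ 0 ∨ β ≠ 0 ∨ γ ≠ 0 ∨ δ ≠ 0) (V : E)
    (hP : l • a - (α • a1 + β • a2) = ((0 : ℝ), V))
    (hQ : m • b - (γ • b1 + δ • b2) = ((0 : ℝ), -V)) : False := by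
  have hV : V ≠ 0 := by
    intro h0
    refine hyp_pos a a1 a2 b b1 b2 ha hb p1 p2 q1 q2 l α β m γ δ hl hα hβ hm hγ hδ hne ?_
    rw [hP, hQ, h0, neg_zero]
  have hν : 0 < ‖V‖ := norm_pos_iff.2 hV
  have fP := congrArg Prod.fst hP
  have fQ := congrArg Prod.fst hQ
  have sP := congrArg Prod.snd hP
  have sQ := congrArg Prod.snd hQ
  simp only [Prod.fst_sub, Prod.fst_add, Prod.smul_fst, smul_eq_mul] at fP fQ
  simp only [Prod.snd_sub, Prod.snd_add, Prod.smul_snd] at sP sQ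
  have hθ : 0 < α + β := by
    rcases (add_nonneg hα hβ).lt_or_eq with h1 | h1
    · exact h1
    · exfalso
      have h2 : α = 0 := by linarith
      have h3 : β = 0 := by linarith
      rw [h2, h3] at fP sP
      have h4 : l * a.1 = 0 := by linarith
      have h5 : l = 0 := (mul_eq_zero.1 h4).resolve_right ha.2.ne'
      rw [h5] at sP
      apply hV
      rw [← sP]
      simp
  have hη : 0 < γ + δ := by
    rcases (add_nonneg hγ hδ).lt_or_eq with h1 | h1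
    · exact h1
    · exfalso
      have h2 : γ = 0 := by linarith
      have h3 : δ = 0 := by linarith
      rw [h2, h3] at fQ sQ
      have h4 : m * b.1 = 0 := by linarith
      have h5 : m = 0 := (mul_eq_zero.1 h4).resolve_right hb.2.ne'
      rw [h5] at sQ
      apply hV
      rw [← neg_eq_zero, ← sQ]
      simp
  have hlp : 0 < l := by
    have h1 := lin_lt hα hβ hθ ha1.2 ha2.2
    have h2 : 0 < l * a.1 := by linarith
    exact (pos_iff_pos_of_mul_pos h2).2 ha.2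
  have hmp : 0 < m := by
    have h1 := lin_lt hγ hδ hη hb1.2 hb2.2
    have h2 : 0 < m * b.1 := by linarith
    exact (pos_iff_pos_of_mul_pos h2).2 hb.2
  obtain ⟨w, hw⟩ : ∃ w : ℝ × E, w = ((0 : ℝ), V) := ⟨_, rfl⟩
  have hP' : α • a1 + β • a2 = l • a - w := by rw [hw, ← hP]; abel
  have hQ' : γ • b1 + δ • b2 = m • b + w := by
    have : w = -(((0 : ℝ), -V) : ℝ × E) := by rw [hw]; ext <;> simp
    rw [this, ← hQ]; abel
  obtain ⟨ν, hν'⟩ : ∃ ν, ν = ‖V‖ := ⟨_, rfl⟩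
  rw [← hν'] at hν
  obtain ⟨e, he⟩ : ∃ e : E, e = ν⁻¹ • V := ⟨_, rfl⟩
  have hVe : V = ν • e := by rw [he, smul_smul, mul_inv_cancel₀ hν.ne', one_smul]
  have he1 : ‖e‖ = 1 := by
    rw [he, norm_smul, norm_inv, Real.norm_of_nonneg hν.le, ← hν', inv_mul_cancel₀ hν.ne']
  obtain ⟨A2, hA2⟩ : ∃ A2, A2 = ⟪a.2, e⟫_ℝ := ⟨_, rfl⟩
  obtain ⟨B2, hB2⟩ : ∃ B2, B2 = ⟪b.2, e⟫_ℝ := ⟨_, rfl⟩
  have waa : BB a w = -(ν * A2) := by
    rw [hw]; simp only [BB]; rw [hVe, real_inner_smul_right, ← hA2]; ring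
  have wbb : BB b w = -(ν * B2) := by
    rw [hw]; simp only [BB]; rw [hVe, real_inner_smul_right, ← hB2]; ring
  have www : BB w w = -ν ^ 2 := by
    rw [hw]; simp only [BB]; rw [real_inner_self_eq_norm_sq, ← hν']; ring
  have hG := gram ha hb e he1
  rw [← hA2, ← hB2] at hG
  obtain ⟨k, hk⟩ : ∃ k, k = BB a b := ⟨_, rfl⟩
  have hA1p : 0 < √(1 + A2 ^ 2) := Real.sqrt_pos.2 (by positivity)
  have hB1p : 0 < √(1 + B2 ^ 2) := Real.sqrt_pos.2 (by positivity)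
  have hAA : √(1 + A2 ^ 2) ^ 2 - A2 ^ 2 = 1 := by rw [Real.sq_sqrt (by positivity)]; ring
  have hBB : √(1 + B2 ^ 2) ^ 2 - B2 ^ 2 = 1 := by rw [Real.sq_sqrt (by positivity)]; ring
  have BaP : α * BB a a1 + β * BB a a2 = l + ν * A2 := by
    rw [← BB_smul_right, ← BB_smul_right, ← BB_add_right, hP', BB_sub_right, BB_smul_right, ha.1,
      waa]
    ring
  have BbQ : γ * BB b b1 + δ * BB b b2 = m - ν * B2 := by
    rw [← BB_smul_right, ← BB_smul_right, ← BB_add_right, hQ', BB_add_right, BB_smul_right, hb.1,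
      wbb]
    ring
  have BPQ : α * (γ * BB a1 b1 + δ * BB a1 b2) + β * (γ * BB a2 b1 + δ * BB a2 b2) =
      l * m * k - l * (ν * A2) + m * (ν * B2) + ν ^ 2 := by
    have h1 : BB (α • a1 + β • a2) (γ • b1 + δ • b2) = BB (l • a - w) (m • b + w) := by
      rw [hP', hQ']
    simp only [BB_sub_left, BB_add_left, BB_smul_left, BB_add_right, BB_smul_right] at h1
    rw [BB_comm w b, waa, wbb, www, ← hk] at h1
    linarith
  have BPP : α * (α * BB a1 a1 + β * BB a1 a2) + β * (α * BB a2 a1 + β * BB a2 a2) =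
      l ^ 2 + 2 * l * (ν * A2) - ν ^ 2 := by
    have h1 : BB (α • a1 + β • a2) (α • a1 + β • a2) = BB (l • a - w) (l • a - w) := by
      rw [hP']
    simp only [BB_sub_left, BB_add_left, BB_smul_left, BB_sub_right, BB_add_right,
      BB_smul_right] at h1
    rw [BB_comm w a, waa, www, ha.1] at h1
    linarith
  have BQQ : γ * (γ * BB b1 b1 + δ * BB b1 b2) + δ * (γ * BB b2 b1 + δ * BB b2 b2) =
      m ^ 2 - 2 * m * (ν * B2) - ν ^ 2 := by
    have h1 : BB (γ • b1 + δ • b2) (γ • b1 + δ • b2) = BB (m • b + w) (m • b + w) := by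
      rw [hQ']
    simp only [BB_add_left, BB_smul_left, BB_add_right, BB_smul_right] at h1
    rw [BB_comm w b, wbb, www, hb.1] at h1
    linarith
  refine real_lemma l m (√(1 + A2 ^ 2)) A2 (√(1 + B2 ^ 2)) B2 ν k (α + β) (γ + δ) hlp hmp hν hθ hη
    hAA hBB hA1p hB1p (by rw [hk]; exact hG) ?_ ?_ ?_ ?_ ?_
  · rw [← BPQ, ← BbQ]
    have h1 := lin_lt hγ hδ hη s11 s12
    have h2 := lin_lt hγ hδ hη s21 s22
    have h3 := lin_lt hα hβ hθ h1 h2
    linarith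
  · rw [← BPQ, ← BaP]
    have h1 := lin_lt hα hβ hθ t11 t12
    have h2 := lin_lt hα hβ hθ t21 t22
    have h3 := lin_lt hγ hδ hη h1 h2
    rw [BB_comm b1 a1, BB_comm b1 a2, BB_comm b2 a1, BB_comm b2 a2] at h3
    linarith
  · rw [← BaP]
    have h1 := lin_lt hα hβ hθ r1 r2
    rw [hk]; linarith
  · rw [← BPP, ha1.1, ha2.1, BB_comm a2 a1]
    exact sq_le_form hα hβ (one_le_BB ha1 ha2)
  · rw [← BQQ, hb1.1, hb2.1, BB_comm b2 b1]
    exact sq_le_form hγ hδ (one_le_BB hb1 hb2)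

end Vale.Agent.P305.H89
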