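import Vale.Agent.P305.R2.H89.Wind
import Vale.Agent.P305.R2.H89.Geo
import Vale.Agent.P305.R2.H89.Hyp2

/-! Two odd closed walks which are nearer to each other than to their own neighbours. -/

set_option autoImplicit false

namespace Vale.Agent.P305.H89

open scoped InnerProductSpace

/-- Three-dimensional Euclidean space. -/
abbrev E3 : Type := EuclideanSpace ℝ (Fin 3)

theorem crossingE (s t : ℕ) (hs : 0 < s) (v w : ℕ → E3) (hv : v s = - v 0)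
    (hw : w t = - w 0) : ∃ k l : ℕ, ∃ α β γ δ : ℝ, 0 ≤ α ∧ 0 ≤ β ∧ 0 ≤ γ ∧ 0 ≤ δ ∧
      (α ≠ 0 ∨ β ≠ 0 ∨ γ ≠ 0 ∨ δ ≠ 0) ∧
      (α • v k + β • v (k + 1) = γ • w l + δ • w (l + 1) ∨
        α • v k + β • v (k + 1) = -(γ • w l + δ • w (l + 1))) := by
  obtain ⟨k, l, α, β, γ, δ, h1, h2, h3, h4, h5, h6⟩ := crossing s t hs (fun k => (v k).ofLp)
    (fun l => (w l).ofLp) (by rw [hv]; rfl) (by rw [hw]; rfl)
  refine ⟨k, l, α, β, γ, δ, h1, h2, h3, h4, h5, ?_⟩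
  rcases h6 with h6 | h6
  · left
    exact WithLp.ofLp_injective 2 h6
  · right
    exact WithLp.ofLp_injective 2 h6

theorem sign_cases {F : Type*} [AddCommGroup F] [Module ℝ F] (k l : ℕ) (X Y : F)
    (h : ((-1 : ℝ) ^ k) • X = ((-1 : ℝ) ^ l) • Y ∨ ((-1 : ℝ) ^ k) • X = -(((-1 : ℝ) ^ l) • Y)) :
    X = Y ∨ X = -Y := by
  rcases neg_one_pow_eq_or ℝ k with hk | hk <;> rcases neg_one_pow_eq_or ℝ l with hl | hl <;>
    rw [hk, hl] at h <;> simp only [one_smul, neg_smul, neg_neg] at h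
  · exact h
  · exact h.symm
  · rcases h with h | h
    · right; rw [← h, neg_neg]
    · left; exact neg_injective h
  · rcases h with h | h
    · left; exact neg_injective h
    · right; rw [← h, neg_neg]

theorem no_euclid (s t : ℕ) (hs : Odd s) (ht : Odd t) (a b : ℕ → E3) (as : a s = a 0)
    (as1 : a (s + 1) = a 1) (bt : b t = b 0) (bt1 : b (t + 1) = b 1)
    (H1 : ∀ i j, dist (a i) (b j) < dist (a i) (a (i + 1)))
    (H2 : ∀ i j, dist (a (i + 1)) (b j) < dist (a (i + 1)) (a i))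
    (H3 : ∀ i j, dist (b j) (a i) < dist (b j) (b (j + 1)))
    (H4 : ∀ i j, dist (b (j + 1)) (a i) < dist (b (j + 1)) (b j)) : False := by
  simp only [dist_eq_norm] at H1 H2 H3 H4
  obtain ⟨k, l, α, β, γ, δ, hα, hβ, hγ, hδ, hne, h⟩ := crossingE s t hs.pos
    (fun k => ((-1 : ℝ) ^ k) • (a (k + 1) - a k)) (fun l => ((-1 : ℝ) ^ l) • (b (l + 1) - b l))
    (by simp only [hs.neg_one_pow, as, as1, pow_zero, one_smul, neg_smul, zero_add])
    (by simp only [ht.neg_one_pow, bt, bt1, pow_zero, one_smul, neg_smul, zero_add])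
  have e1 : α • ((-1 : ℝ) ^ k) • (a (k + 1) - a k) +
      β • ((-1 : ℝ) ^ (k + 1)) • (a (k + 1 + 1) - a (k + 1)) =
      ((-1 : ℝ) ^ k) • (α • (a (k + 1) - a k) + β • (a (k + 1) - a (k + 2))) := by
    rw [pow_succ]; module
  have e2 : γ • ((-1 : ℝ) ^ l) • (b (l + 1) - b l) +
      δ • ((-1 : ℝ) ^ (l + 1)) • (b (l + 1 + 1) - b (l + 1)) =
      ((-1 : ℝ) ^ l) • (γ • (b (l + 1) - b l) + δ • (b (l + 1) - b (l + 2))) := by
    rw [pow_succ]; module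
  rw [e1, e2] at h
  have rev : ∀ {x y z u : E3}, ‖x - y‖ < ‖x - z‖ → ‖y - x‖ < ‖z - x‖ := by
    intro x y z u h
    rwa [norm_sub_rev y x, norm_sub_rev z x]
  rcases sign_cases k l _ _ h with h | h
  · exact six_pos (a (k + 1)) (a k) (a (k + 2)) (b (l + 1)) (b l) (b (l + 2))
      (H1 k (l + 1)) (H2 (k + 1) (l + 1)) (H3 (k + 1) l) (H4 (k + 1) (l + 1)) α β γ δ hα hβ hγ hδ
      hne h
  · refine six_neg (a (k + 1)) (a k) (a (k + 2)) (b (l + 1)) (b l) (b (l + 2))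
      (H1 k (l + 1)) (H2 (k + 1) (l + 1)) (H3 (k + 1) l) (H4 (k + 1) (l + 1))
      (H2 k (l + 1)) (H1 (k + 1) (l + 1)) ?_ ?_ ?_ ?_ ?_ ?_ ?_ ?_ α β γ δ hα hβ hγ hδ hne h
    · have := H3 k l
      rwa [norm_sub_rev (b l), norm_sub_rev (b l)] at this
    · have := H4 k (l + 1)
      rwa [norm_sub_rev (b (l + 1 + 1)), norm_sub_rev (b (l + 1 + 1))] at this
    · have := H3 (k + 2) l
      rwa [norm_sub_rev (b l), norm_sub_rev (b l)] at this
    · have := H4 (k + 2) (l + 1)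
      rwa [norm_sub_rev (b (l + 1 + 1)), norm_sub_rev (b (l + 1 + 1))] at this
    · have := H1 k l
      rwa [norm_sub_rev (a k), norm_sub_rev (a k)] at this
    · have := H2 (k + 1) l
      rwa [norm_sub_rev (a (k + 1 + 1)), norm_sub_rev (a (k + 1 + 1))] at this
    · have := H1 k (l + 2)
      rwa [norm_sub_rev (a k), norm_sub_rev (a k)] at this
    · have := H2 (k + 1) (l + 2)
      rwa [norm_sub_rev (a (k + 1 + 1)), norm_sub_rev (a (k + 1 + 1))] at this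

theorem no_hyp (s t : ℕ) (hs : Odd s) (ht : Odd t) (a b : ℕ → ℝ × E3) (ha : ∀ i, IsPt (a i))
    (hb : ∀ j, IsPt (b j)) (as : a s = a 0)
    (as1 : a (s + 1) = a 1) (bt : b t = b 0) (bt1 : b (t + 1) = b 1)
    (H1 : ∀ i j, BB (a i) (b j) < BB (a i) (a (i + 1)))
    (H2 : ∀ i j, BB (a (i + 1)) (b j) < BB (a (i + 1)) (a i))
    (H3 : ∀ i j, BB (b j) (a i) < BB (b j) (b (j + 1)))
    (H4 : ∀ i j, BB (b (j + 1)) (a i) < BB (b (j + 1)) (b j)) : False := by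
  obtain ⟨k, l, α, β, γ, δ, hα, hβ, hγ, hδ, hne, h⟩ := crossingE s t hs.pos
    (fun k => ((-1 : ℝ) ^ k) • ((a k).1 • (a (k + 1)).2 - (a (k + 1)).1 • (a k).2))
    (fun l => ((-1 : ℝ) ^ l) • ((b l).1 • (b (l + 1)).2 - (b (l + 1)).1 • (b l).2))
    (by simp only [hs.neg_one_pow, as, as1, pow_zero, one_smul, neg_smul, zero_add])
    (by simp only [ht.neg_one_pow, bt, bt1, pow_zero, one_smul, neg_smul, zero_add])
  have e1 : ∀ (c : ℕ → ℝ × E3) (k : ℕ) (α β : ℝ),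
      α • ((-1 : ℝ) ^ k) • ((c k).1 • (c (k + 1)).2 - (c (k + 1)).1 • (c k).2) +
      β • ((-1 : ℝ) ^ (k + 1)) •
        ((c (k + 1)).1 • (c (k + 1 + 1)).2 - (c (k + 1 + 1)).1 • (c (k + 1)).2) =
      ((-1 : ℝ) ^ k) • ((α * (c k).1 + β * (c (k + 2)).1) • (c (k + 1)).2 -
        ((α * (c (k + 1)).1) • (c k).2 + (β * (c (k + 1)).1) • (c (k + 2)).2)) := by
    intro c k α β
    rw [pow_succ]; module
  have e2 : ∀ (c : ℕ → ℝ × E3) (k : ℕ) (α β : ℝ),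
      (α * (c k).1 + β * (c (k + 2)).1) • c (k + 1) -
        ((α * (c (k + 1)).1) • c k + (β * (c (k + 1)).1) • c (k + 2)) =
      ((0 : ℝ), (α * (c k).1 + β * (c (k + 2)).1) • (c (k + 1)).2 -
        ((α * (c (k + 1)).1) • (c k).2 + (β * (c (k + 1)).1) • (c (k + 2)).2)) := by
    intro c k α β
    refine Prod.ext ?_ rfl
    simp only [Prod.fst_sub, Prod.fst_add, Prod.smul_fst, smul_eq_mul]
    ring
  rw [e1 a k α β, e1 b l γ δ] at h
  have ta : ∀ i, 0 < (a i).1 := fun i => (ha i).2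
  have tb : ∀ i, 0 < (b i).1 := fun i => (hb i).2
  have nl : 0 ≤ α * (a k).1 + β * (a (k + 2)).1 :=
    add_nonneg (mul_nonneg hα (ta _).le) (mul_nonneg hβ (ta _).le)
  have nm : 0 ≤ γ * (b l).1 + δ * (b (l + 2)).1 :=
    add_nonneg (mul_nonneg hγ (tb _).le) (mul_nonneg hδ (tb _).le)
  have hne' : α * (a (k + 1)).1 ≠ 0 ∨ β * (a (k + 1)).1 ≠ 0 ∨ γ * (b (l + 1)).1 ≠ 0 ∨
      δ * (b (l + 1)).1 ≠ 0 := by
    rcases hne with h | h | h | h
    · exact Or.inl (mul_ne_zero h (ta _).ne')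
    · exact Or.inr (Or.inl (mul_ne_zero h (ta _).ne'))
    · exact Or.inr (Or.inr (Or.inl (mul_ne_zero h (tb _).ne')))
    · exact Or.inr (Or.inr (Or.inr (mul_ne_zero h (tb _).ne')))
  have c1 : ∀ i j, BB (a i) (b j) < BB (a (i + 1)) (a i) := fun i j => by
    rw [BB_comm (a (i + 1))]; exact H1 i j
  have c3 : ∀ i j, BB (a i) (b j) < BB (b (j + 1)) (b j) := fun i j => by
    rw [BB_comm (b (j + 1)), BB_comm (a i)]; exact H3 i j
  rcases sign_cases k l _ _ h with h | h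
  · refine hyp_pos (a (k + 1)) (a k) (a (k + 2)) (b (l + 1)) (b l) (b (l + 2)) (ha _) (hb _)
      (H1 k (l + 1)) (H2 (k + 1) (l + 1)) (H3 (k + 1) l) (H4 (k + 1) (l + 1)) _
      (α * (a (k + 1)).1) (β * (a (k + 1)).1) _ (γ * (b (l + 1)).1) (δ * (b (l + 1)).1) nl
      (mul_nonneg hα (ta _).le) (mul_nonneg hβ (ta _).le) nm (mul_nonneg hγ (tb _).le)
      (mul_nonneg hδ (tb _).le) hne' ?_
    rw [e2 a k α β, e2 b l γ δ, h]
  · refine hyp_neg (a (k + 1)) (a k) (a (k + 2)) (b (l + 1)) (b l) (b (l + 2)) (ha _) (ha _)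
      (ha _) (hb _) (hb _) (hb _)
      (H1 k (l + 1)) (H2 (k + 1) (l + 1)) (H3 (k + 1) l) (H4 (k + 1) (l + 1))
      (H2 k (l + 1)) (H1 (k + 1) (l + 1)) (c3 k l) ?_ (c3 (k + 2) l) ?_ ?_ ?_ ?_ ?_ _
      (α * (a (k + 1)).1) (β * (a (k + 1)).1) _ (γ * (b (l + 1)).1) (δ * (b (l + 1)).1) nl
      (mul_nonneg hα (ta _).le) (mul_nonneg hβ (ta _).le) nm (mul_nonneg hγ (tb _).le)
      (mul_nonneg hδ (tb _).le) hne' _ (e2 a k α β) ?_
    · rw [BB_comm (a k), BB_comm (b (l + 1))]; exact H4 k (l + 1)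
    · rw [BB_comm (a (k + 2)), BB_comm (b (l + 1))]; exact H4 (k + 2) (l + 1)
    · rw [BB_comm (b l)]; exact c1 k l
    · rw [BB_comm (b l), BB_comm (a (k + 1))]; exact H2 (k + 1) l
    · rw [BB_comm (b (l + 2))]; exact c1 k (l + 2)
    · rw [BB_comm (b (l + 2)), BB_comm (a (k + 1))]; exact H2 (k + 1) (l + 2)
    · rw [e2 b l γ δ, h, neg_neg]

end Vale.Agent.P305.H89
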