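import Vale.Agent.P305.R2.H89.Sph
import Vale.Agent.P305.R2.H89.Hyp2

/-! Two triples of points of a sphere which are nearer to each other than to their neighbours. -/

set_option autoImplicit false

namespace Vale.Agent.P305.H89

open scoped InnerProductSpace

variable {F : Type*} [NormedAddCommGroup F] [InnerProductSpace ℝ F]

theorem real_lemmaS (l m A1 A2 B1 B2 ν k θ η : ℝ) (hl : 0 < l) (hm : 0 < m) (hν0 : 0 < ν)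
    (hθ : 0 < θ) (hη : 0 < η) (hAA : A1 ^ 2 + A2 ^ 2 = 1)
    (hBB : B1 ^ 2 + B2 ^ 2 = 1) (hA1p : 0 < A1) (hB1p : 0 < B1) (hk : 0 < k)
    (hG : k ≤ A1 * B1 + A2 * B2) (hR : 0 < l * m * k + l * (ν * A2) - m * (ν * B2) - ν ^ 2)
    (h1 : θ * (m + ν * B2) < l * m * k + l * (ν * A2) - m * (ν * B2) - ν ^ 2)
    (h2 : η * (l - ν * A2) < l * m * k + l * (ν * A2) - m * (ν * B2) - ν ^ 2)
    (h3 : l - ν * A2 < θ * k) (R1 : l ^ 2 - 2 * l * (ν * A2) + ν ^ 2 ≤ θ ^ 2)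
    (R2 : m ^ 2 + 2 * m * (ν * B2) + ν ^ 2 ≤ η ^ 2) : False := by
  have hPP : (l * A1) ^ 2 + (l * A2 - ν) ^ 2 = l ^ 2 - 2 * l * (ν * A2) + ν ^ 2 := by
    linear_combination l ^ 2 * hAA
  have hQQ : (m * B1) ^ 2 + (m * B2 + ν) ^ 2 = m ^ 2 + 2 * m * (ν * B2) + ν ^ 2 := by
    linear_combination m ^ 2 * hBB
  have hbq : B1 * (m * B1) + B2 * (m * B2 + ν) = m + ν * B2 := by
    linear_combination m * hBB
  have hap : A1 * (l * A1) + A2 * (l * A2 - ν) = l - ν * A2 := by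
    linear_combination l * hAA
  have hRR : l * m * k + l * (ν * A2) - m * (ν * B2) - ν ^ 2 ≤
      l * A1 * (m * B1) + (l * A2 - ν) * (m * B2 + ν) := by
    have h4 : l * m * k ≤ l * m * (A1 * B1 + A2 * B2) :=
      mul_le_mul_of_nonneg_left hG (by positivity)
    have h5 : l * A1 * (m * B1) + (l * A2 - ν) * (m * B2 + ν) =
        l * m * (A1 * B1 + A2 * B2) + l * (ν * A2) - m * (ν * B2) - ν ^ 2 := by ring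
    rw [h5]; linarith
  refine planeS A1 A2 B1 B2 (l * A1) (l * A2 - ν) (m * B1) (m * B2 + ν) θ η k
    (l * m * k + l * (ν * A2) - m * (ν * B2) - ν ^ 2) hAA hBB hA1p hB1p
    (by positivity) (by positivity) hθ hη (by rw [hPP]; exact R1) (by rw [hQQ]; exact R2) hk hG hR
    hRR ?_ ?_ ?_ ?_ ?_
  · rw [hbq]; exact h1
  · rw [hap]; exact h2
  · rw [hap]; exact h3
  · have : B1 * (m * B2 + ν) - B2 * (m * B1) = ν * B1 := by ring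
    rw [this]; positivity
  · have : A2 * (l * A1) - A1 * (l * A2 - ν) = ν * A1 := by ring
    rw [this]; positivity

theorem gramS {a b e : F} (ha : ‖a‖ = 1) (hb : ‖b‖ = 1) (he : ‖e‖ = 1) :
    ⟪a, b⟫_ℝ ≤ √(1 - ⟪a, e⟫_ℝ ^ 2) * √(1 - ⟪b, e⟫_ℝ ^ 2) + ⟪a, e⟫_ℝ * ⟪b, e⟫_ℝ := by
  obtain ⟨s, hs⟩ : ∃ s, s = ⟪a, e⟫_ℝ := ⟨_, rfl⟩
  obtain ⟨t, ht⟩ : ∃ t, t = ⟪b, e⟫_ℝ := ⟨_, rfl⟩
  have hee : ⟪e, e⟫_ℝ = 1 := by rw [real_inner_self_eq_norm_sq, he, one_pow]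
  have haa : ⟪a, a⟫_ℝ = 1 := by rw [real_inner_self_eq_norm_sq, ha, one_pow]
  have hbb : ⟪b, b⟫_ℝ = 1 := by rw [real_inner_self_eq_norm_sq, hb, one_pow]
  have e1 : ⟪a - s • e, b - t • e⟫_ℝ = ⟪a, b⟫_ℝ - s * t := by
    simp only [inner_sub_left, inner_sub_right, real_inner_smul_left, real_inner_smul_right, hee]
    rw [real_inner_comm b e, ← hs, ← ht]; ring
  have e2 : ‖a - s • e‖ ^ 2 = 1 - s ^ 2 := by
    rw [← real_inner_self_eq_norm_sq]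
    simp only [inner_sub_left, inner_sub_right, real_inner_smul_left, real_inner_smul_right, hee,
      haa]
    rw [real_inner_comm a e, ← hs]; ring
  have e3 : ‖b - t • e‖ ^ 2 = 1 - t ^ 2 := by
    rw [← real_inner_self_eq_norm_sq]
    simp only [inner_sub_left, inner_sub_right, real_inner_smul_left, real_inner_smul_right, hee,
      hbb]
    rw [real_inner_comm b e, ← ht]; ring
  have f4 := real_inner_le_norm (a - s • e) (b - t • e)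
  rw [← hs, ← ht, ← e2, ← e3, Real.sqrt_sq (norm_nonneg _), Real.sqrt_sq (norm_nonneg _)]
  linarith

theorem one_sub_pos {a e o : F} (ha : ‖a‖ = 1) (he : ‖e‖ = 1) (hoe : ⟪o, e⟫_ℝ = 0)
    (hoa : 0 < ⟪o, a⟫_ℝ) : 0 < 1 - ⟪a, e⟫_ℝ ^ 2 := by
  have hee : ⟪e, e⟫_ℝ = 1 := by rw [real_inner_self_eq_norm_sq, he, one_pow]
  have haa : ⟪a, a⟫_ℝ = 1 := by rw [real_inner_self_eq_norm_sq, ha, one_pow]
  have e2 : ‖a - ⟪a, e⟫_ℝ • e‖ ^ 2 = 1 - ⟪a, e⟫_ℝ ^ 2 := by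
    rw [← real_inner_self_eq_norm_sq]
    simp only [inner_sub_left, inner_sub_right, real_inner_smul_left, real_inner_smul_right, hee,
      haa]
    rw [real_inner_comm a e]; ring
  have hne : a - ⟪a, e⟫_ℝ • e ≠ 0 := by
    intro h0
    have h1 : ⟪o, a - ⟪a, e⟫_ℝ • e⟫_ℝ = 0 := by rw [h0, inner_zero_right]
    rw [inner_sub_right, real_inner_smul_right, hoe, mul_zero, sub_zero] at h1
    exact hoa.ne' h1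
  rw [← e2]
  exact pow_pos (norm_pos_iff.2 hne) 2

theorem sph_pos (a a1 a2 b b1 b2 : F) (ha : ‖a‖ = 1) (hb : ‖b‖ = 1)
    (p1 : ⟪a1, a⟫_ℝ < ⟪a1, b⟫_ℝ) (p2 : ⟪a2, a⟫_ℝ < ⟪a2, b⟫_ℝ)
    (q1 : ⟪b1, b⟫_ℝ < ⟪b1, a⟫_ℝ) (q2 : ⟪b2, b⟫_ℝ < ⟪b2, a⟫_ℝ) (l α β m γ δ : ℝ) (hl : 0 ≤ l)
    (hα : 0 ≤ α) (hβ : 0 ≤ β) (hm : 0 ≤ m) (hγ : 0 ≤ γ) (hδ : 0 ≤ δ)
    (hne : α ≠ 0 ∨ β ≠ 0 ∨ γ ≠ 0 ∨ δ ≠ 0) :
    l • a - (α • a1 + β • a2) ≠ m • b - (γ • b1 + δ • b2) := by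
  intro h
  have haa : ⟪a, a⟫_ℝ = 1 := by rw [real_inner_self_eq_norm_sq, ha, one_pow]
  have hbb : ⟪b, b⟫_ℝ = 1 := by rw [real_inner_self_eq_norm_sq, hb, one_pow]
  have h1 := congrArg (fun z => ⟪z, a - b⟫_ℝ) h
  simp only [inner_sub_left, inner_add_left, real_inner_smul_left, inner_sub_right] at h1
  rw [haa, hbb, real_inner_comm a b] at h1
  have hk : ⟪a, b⟫_ℝ ≤ 1 := by
    have := real_inner_le_norm a b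
    rwa [ha, hb, one_mul] at this
  have n0 := mul_nonneg hl (by linarith : 0 ≤ 1 - ⟪a, b⟫_ℝ)
  have n1 := mul_nonneg hα (by linarith : 0 ≤ ⟪a1, b⟫_ℝ - ⟪a1, a⟫_ℝ)
  have n2 := mul_nonneg hβ (by linarith : 0 ≤ ⟪a2, b⟫_ℝ - ⟪a2, a⟫_ℝ)
  have n3 := mul_nonneg hm (by linarith : 0 ≤ 1 - ⟪a, b⟫_ℝ)
  have n4 := mul_nonneg hγ (by linarith : 0 ≤ ⟪b1, a⟫_ℝ - ⟪b1, b⟫_ℝ)
  have n5 := mul_nonneg hδ (by linarith : 0 ≤ ⟪b2, a⟫_ℝ - ⟪b2, b⟫_ℝ)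
  have m1 : α * (⟪a1, b⟫_ℝ - ⟪a1, a⟫_ℝ) = 0 := by linarith
  have m2 : β * (⟪a2, b⟫_ℝ - ⟪a2, a⟫_ℝ) = 0 := by linarith
  have m4 : γ * (⟪b1, a⟫_ℝ - ⟪b1, b⟫_ℝ) = 0 := by linarith
  have m5 : δ * (⟪b2, a⟫_ℝ - ⟪b2, b⟫_ℝ) = 0 := by linarith
  rcases hne with h5 | h5 | h5 | h5
  · exact h5 ((mul_eq_zero.1 m1).resolve_right (sub_pos.2 p1).ne')
  · exact h5 ((mul_eq_zero.1 m2).resolve_right (sub_pos.2 p2).ne')
  · exact h5 ((mul_eq_zero.1 m4).resolve_right (sub_pos.2 q1).ne')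
  · exact h5 ((mul_eq_zero.1 m5).resolve_right (sub_pos.2 q2).ne')

theorem norm_form (x y : F) (hx : ‖x‖ = 1) (hy : ‖y‖ = 1) {α β : ℝ} (hα : 0 ≤ α) (hβ : 0 ≤ β) :
    ‖α • x + β • y‖ ^ 2 ≤ (α + β) ^ 2 := by
  refine pow_le_pow_left₀ (norm_nonneg _) ?_ 2
  refine (norm_add_le _ _).trans ?_
  rw [norm_smul, norm_smul, hx, hy, Real.norm_of_nonneg hα, Real.norm_of_nonneg hβ, mul_one,
    mul_one]

theorem sph_neg (o a a1 a2 b b1 b2 : F) (ha : ‖a‖ = 1) (ha1 : ‖a1‖ = 1) (ha2 : ‖a2‖ = 1)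
    (hb : ‖b‖ = 1) (hb1 : ‖b1‖ = 1) (hb2 : ‖b2‖ = 1)
    (oa : 0 < ⟪o, a⟫_ℝ) (oa1 : 0 < ⟪o, a1⟫_ℝ) (oa2 : 0 < ⟪o, a2⟫_ℝ)
    (ob : 0 < ⟪o, b⟫_ℝ) (ob1 : 0 < ⟪o, b1⟫_ℝ) (ob2 : 0 < ⟪o, b2⟫_ℝ)
    (p1 : ⟪a1, a⟫_ℝ < ⟪a1, b⟫_ℝ) (p2 : ⟪a2, a⟫_ℝ < ⟪a2, b⟫_ℝ)
    (q1 : ⟪b1, b⟫_ℝ < ⟪b1, a⟫_ℝ) (q2 : ⟪b2, b⟫_ℝ < ⟪b2, a⟫_ℝ)
    (r1 : ⟪a, a1⟫_ℝ < ⟪a, b⟫_ℝ) (r2 : ⟪a, a2⟫_ℝ < ⟪a, b⟫_ℝ)
    (s11 : ⟪b, b1⟫_ℝ < ⟪a1, b1⟫_ℝ) (s12 : ⟪b, b2⟫_ℝ < ⟪a1, b2⟫_ℝ)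
    (s21 : ⟪b, b1⟫_ℝ < ⟪a2, b1⟫_ℝ) (s22 : ⟪b, b2⟫_ℝ < ⟪a2, b2⟫_ℝ)
    (t11 : ⟪a, a1⟫_ℝ < ⟪a1, b1⟫_ℝ) (t12 : ⟪a, a2⟫_ℝ < ⟪a2, b1⟫_ℝ)
    (t21 : ⟪a, a1⟫_ℝ < ⟪a1, b2⟫_ℝ) (t22 : ⟪a, a2⟫_ℝ < ⟪a2, b2⟫_ℝ)
    (z0 : 0 < ⟪a, b⟫_ℝ) (z11 : 0 < ⟪a1, b1⟫_ℝ) (z12 : 0 < ⟪a1, b2⟫_ℝ)
    (z21 : 0 < ⟪a2, b1⟫_ℝ) (z22 : 0 < ⟪a2, b2⟫_ℝ) (l α β m γ δ : ℝ) (hl : 0 ≤ l)
    (hα : 0 ≤ α) (hβ : 0 ≤ β) (hm : 0 ≤ m) (hγ : 0 ≤ γ) (hδ : 0 ≤ δ)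
    (hne : α ≠ 0 ∨ β ≠ 0 ∨ γ ≠ 0 ∨ δ ≠ 0) (V : F) (hoV : ⟪o, V⟫_ℝ = 0)
    (hP : l • a - (α • a1 + β • a2) = V) (hQ : m • b - (γ • b1 + δ • b2) = -V) : False := by
  have hV : V ≠ 0 := by
    intro h0
    refine sph_pos a a1 a2 b b1 b2 ha hb p1 p2 q1 q2 l α β m γ δ hl hα hβ hm hγ hδ hne ?_
    rw [hP, hQ, h0, neg_zero]
  have hν : 0 < ‖V‖ := norm_pos_iff.2 hV
  have fP := congrArg (fun z => ⟪o, z⟫_ℝ) hP
  have fQ := congrArg (fun z => ⟪o, z⟫_ℝ) hQ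
  simp only [inner_sub_right, inner_add_right, real_inner_smul_right, inner_neg_right, hoV,
    neg_zero] at fP fQ
  have hθ : 0 < α + β := by
    rcases (add_nonneg hα hβ).lt_or_eq with h1 | h1
    · exact h1
    · exfalso
      have h2 : α = 0 := by linarith
      have h3 : β = 0 := by linarith
      rw [h2, h3] at fP hP
      have h4 : l * ⟪o, a⟫_ℝ = 0 := by linarith
      have h5 : l = 0 := (mul_eq_zero.1 h4).resolve_right oa.ne'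
      rw [h5] at hP
      apply hV
      rw [← hP]
      simp
  have hη : 0 < γ + δ := by
    rcases (add_nonneg hγ hδ).lt_or_eq with h1 | h1
    · exact h1
    · exfalso
      have h2 : γ = 0 := by linarith
      have h3 : δ = 0 := by linarith
      rw [h2, h3] at fQ hQ
      have h4 : m * ⟪o, b⟫_ℝ = 0 := by linarith
      have h5 : m = 0 := (mul_eq_zero.1 h4).resolve_right ob.ne'
      rw [h5] at hQ
      apply hV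
      rw [← neg_eq_zero, ← hQ]
      simp
  have hlp : 0 < l := by
    have h1 := lin_lt hα hβ hθ oa1 oa2
    have h2 : 0 < l * ⟪o, a⟫_ℝ := by linarith
    exact (pos_iff_pos_of_mul_pos h2).2 oa
  have hmp : 0 < m := by
    have h1 := lin_lt hγ hδ hη ob1 ob2
    have h2 : 0 < m * ⟪o, b⟫_ℝ := by linarith
    exact (pos_iff_pos_of_mul_pos h2).2 ob
  have hP' : α • a1 + β • a2 = l • a - V := by rw [← hP]; abel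
  have hQ' : γ • b1 + δ • b2 = m • b + V := by
    have : V = -(-V) := (neg_neg V).symm
    rw [this, ← hQ]; abel
  obtain ⟨ν, hν'⟩ : ∃ ν, ν = ‖V‖ := ⟨_, rfl⟩
  rw [← hν'] at hν
  obtain ⟨e, he⟩ : ∃ e : F, e = ν⁻¹ • V := ⟨_, rfl⟩
  have hVe : V = ν • e := by rw [he, smul_smul, mul_inv_cancel₀ hν.ne', one_smul]
  have he1 : ‖e‖ = 1 := by
    rw [he, norm_smul, norm_inv, Real.norm_of_nonneg hν.le, ← hν', inv_mul_cancel₀ hν.ne']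
  have hoe : ⟪o, e⟫_ℝ = 0 := by rw [he, real_inner_smul_right, hoV, mul_zero]
  obtain ⟨A2, hA2⟩ : ∃ A2, A2 = ⟪a, e⟫_ℝ := ⟨_, rfl⟩
  obtain ⟨B2, hB2⟩ : ∃ B2, B2 = ⟪b, e⟫_ℝ := ⟨_, rfl⟩
  have haa : ⟪a, a⟫_ℝ = 1 := by rw [real_inner_self_eq_norm_sq, ha, one_pow]
  have hbb : ⟪b, b⟫_ℝ = 1 := by rw [real_inner_self_eq_norm_sq, hb, one_pow]
  have waa : ⟪a, V⟫_ℝ = ν * A2 := by rw [hVe, real_inner_smul_right, ← hA2]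
  have wbb : ⟪b, V⟫_ℝ = ν * B2 := by rw [hVe, real_inner_smul_right, ← hB2]
  have www : ⟪V, V⟫_ℝ = ν ^ 2 := by rw [real_inner_self_eq_norm_sq, ← hν']
  have hG := gramS ha hb he1
  have hA1 := one_sub_pos ha he1 hoe oa
  have hB1 := one_sub_pos hb he1 hoe ob
  rw [← hA2] at hA1
  rw [← hB2] at hB1
  rw [← hA2, ← hB2] at hG
  obtain ⟨k, hk⟩ : ∃ k, k = ⟪a, b⟫_ℝ := ⟨_, rfl⟩
  have hA1p : 0 < √(1 - A2 ^ 2) := Real.sqrt_pos.2 hA1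
  have hB1p : 0 < √(1 - B2 ^ 2) := Real.sqrt_pos.2 hB1
  have hAA : √(1 - A2 ^ 2) ^ 2 + A2 ^ 2 = 1 := by rw [Real.sq_sqrt hA1.le]; ring
  have hBB : √(1 - B2 ^ 2) ^ 2 + B2 ^ 2 = 1 := by rw [Real.sq_sqrt hB1.le]; ring
  have BaP : α * ⟪a, a1⟫_ℝ + β * ⟪a, a2⟫_ℝ = l - ν * A2 := by
    rw [← real_inner_smul_right, ← real_inner_smul_right, ← inner_add_right, hP',
      inner_sub_right, real_inner_smul_right, haa, waa, mul_one]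
  have BbQ : γ * ⟪b, b1⟫_ℝ + δ * ⟪b, b2⟫_ℝ = m + ν * B2 := by
    rw [← real_inner_smul_right, ← real_inner_smul_right, ← inner_add_right, hQ',
      inner_add_right, real_inner_smul_right, hbb, wbb, mul_one]
  have BPQ : α * (γ * ⟪a1, b1⟫_ℝ + δ * ⟪a1, b2⟫_ℝ) + β * (γ * ⟪a2, b1⟫_ℝ + δ * ⟪a2, b2⟫_ℝ) =
      l * m * k + l * (ν * A2) - m * (ν * B2) - ν ^ 2 := by
    have h1 : ⟪α • a1 + β • a2, γ • b1 + δ • b2⟫_ℝ = ⟪l • a - V, m • b + V⟫_ℝ := by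
      rw [hP', hQ']
    simp only [inner_sub_left, inner_add_left, real_inner_smul_left, inner_add_right,
      real_inner_smul_right] at h1
    rw [real_inner_comm b V, waa, wbb, www, ← hk] at h1
    linarith
  have BPP : ‖α • a1 + β • a2‖ ^ 2 = l ^ 2 - 2 * l * (ν * A2) + ν ^ 2 := by
    rw [hP', norm_sub_sq_real, norm_smul, ha, real_inner_smul_left, waa,
      Real.norm_of_nonneg hlp.le, ← hν']
    ring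
  have BQQ : ‖γ • b1 + δ • b2‖ ^ 2 = m ^ 2 + 2 * m * (ν * B2) + ν ^ 2 := by
    rw [hQ', norm_add_sq_real, norm_smul, hb, real_inner_smul_left, wbb,
      Real.norm_of_nonneg hmp.le, ← hν']
    ring
  refine real_lemmaS l m (√(1 - A2 ^ 2)) A2 (√(1 - B2 ^ 2)) B2 ν k (α + β) (γ + δ) hlp hmp hν hθ
    hη hAA hBB hA1p hB1p (by rw [hk]; exact z0) (by rw [hk]; exact hG) ?_ ?_ ?_ ?_ ?_ ?_
  · rw [← BPQ]
    have h1 := lin_lt hγ hδ hη z11 z12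
    have h2 := lin_lt hγ hδ hη z21 z22
    have h3 := lin_lt hα hβ hθ h1 h2
    linarith
  · rw [← BPQ, ← BbQ]
    have h1 := lin_lt hγ hδ hη s11 s12
    have h2 := lin_lt hγ hδ hη s21 s22
    have h3 := lin_lt hα hβ hθ h1 h2
    linarith
  · rw [← BPQ, ← BaP]
    have h1 := lin_lt hα hβ hθ t11 t12
    have h2 := lin_lt hα hβ hθ t21 t22
    have h3 := lin_lt hγ hδ hη h1 h2
    linarith
  · rw [← BaP]
    have h1 := lin_lt hα hβ hθ r1 r2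
    rw [hk]; linarith
  · rw [← BPP]; exact norm_form a1 a2 ha1 ha2 hα hβ
  · rw [← BQQ]; exact norm_form b1 b2 hb1 hb2 hγ hδ

end Vale.Agent.P305.H89
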