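import Vale.Agent.P305.R2.H89.Seq
import Vale.Agent.P305.R2.H89.Sph2

/-! Two odd closed walks on the three-dimensional sphere. -/

set_option autoImplicit false

namespace Vale.Agent.P305.H89

open scoped InnerProductSpace

/-- Four-dimensional Euclidean space. -/
abbrev E4 : Type := EuclideanSpace ℝ (Fin 4)

theorem crossing4 (o : E4) (ho : o ≠ 0) (s t : ℕ) (hs : 0 < s) (v w : ℕ → E4)
    (hv' : ∀ k, ⟪o, v k⟫_ℝ = 0) (hw' : ∀ k, ⟪o, w k⟫_ℝ = 0) (hv : v s = - v 0)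
    (hw : w t = - w 0) : ∃ k l : ℕ, ∃ α β γ δ : ℝ, 0 ≤ α ∧ 0 ≤ β ∧ 0 ≤ γ ∧ 0 ≤ δ ∧
      (α ≠ 0 ∨ β ≠ 0 ∨ γ ≠ 0 ∨ δ ≠ 0) ∧
      (α • v k + β • v (k + 1) = γ • w l + δ • w (l + 1) ∨
        α • v k + β • v (k + 1) = -(γ • w l + δ • w (l + 1))) := by
  have : Fact (Module.finrank ℝ E4 = 3 + 1) := ⟨by simp⟩
  let B : OrthonormalBasis (Fin 3) ℝ (ℝ ∙ o)ᗮ :=
    OrthonormalBasis.fromOrthogonalSpanSingleton 3 ho
  let V : ℕ → (ℝ ∙ o)ᗮ := fun k => ⟨v k, Submodule.mem_orthogonal_singleton_iff_inner_right.2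
    (hv' k)⟩
  let W : ℕ → (ℝ ∙ o)ᗮ := fun k => ⟨w k, Submodule.mem_orthogonal_singleton_iff_inner_right.2
    (hw' k)⟩
  have hV : V s = - V 0 := Subtype.ext hv
  have hW : W t = - W 0 := Subtype.ext hw
  obtain ⟨k, l, α, β, γ, δ, h1, h2, h3, h4, h5, h6⟩ := crossingE s t hs
    (fun k => B.repr (V k)) (fun l => B.repr (W l)) (by rw [hV, map_neg]) (by rw [hW, map_neg])
  refine ⟨k, l, α, β, γ, δ, h1, h2, h3, h4, h5, ?_⟩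
  simp only [← map_smul, ← map_add, ← map_neg] at h6
  rcases h6 with h6 | h6
  · left
    exact congrArg Subtype.val (B.repr.injective h6)
  · right
    exact congrArg Subtype.val (B.repr.injective h6)

/-- A common open half-space. -/
theorem exists_pole (S T : Set E4) (hS : S.Finite) (hT : T.Finite) (hS0 : S.Nonempty)
    (hT0 : T.Nonempty) (h : ∀ x ∈ S, ∀ y ∈ T, 0 < ⟪x, y⟫_ℝ) :
    ∃ o : E4, (∀ x ∈ S, 0 < ⟪o, x⟫_ℝ) ∧ ∀ y ∈ T, 0 < ⟪o, y⟫_ℝ := by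
  have h1 : ∀ p ∈ convexHull ℝ S, ∀ q ∈ convexHull ℝ T, 0 < ⟪p, q⟫_ℝ := by
    have h2 : ∀ p ∈ convexHull ℝ S, ∀ y ∈ T, 0 < ⟪p, y⟫_ℝ := by
      intro p hp y hy
      have hc : Convex ℝ {x : E4 | 0 < ⟪x, y⟫_ℝ} := by
        intro x hx z hz a b ha hb hab
        simp only [Set.mem_ofPred_eq] at hx hz ⊢
        rw [inner_add_left, real_inner_smul_left, real_inner_smul_left]
        exact comb_pos ha hb hab hx hz
      exact convexHull_min (fun x hx => h x hx y hy) hc hp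
    intro p hp q hq
    have hc : Convex ℝ {x : E4 | 0 < ⟪p, x⟫_ℝ} := by
      intro x hx z hz a b ha hb hab
      simp only [Set.mem_ofPred_eq] at hx hz ⊢
      rw [inner_add_right, real_inner_smul_right, real_inner_smul_right]
      exact comb_pos ha hb hab hx hz
    exact convexHull_min (fun x hx => h2 p hp x hx) hc hq
  have h0 : (0 : E4) ∉ convexHull ℝ (S ∪ T) := by
    rw [convexHull_union hS0 hT0]
    intro hmem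
    obtain ⟨p, hp, q, hq, hseg⟩ := mem_convexJoin.1 hmem
    obtain ⟨a, b, ha, hb, hab, he⟩ := hseg
    have hpq := h1 p hp q hq
    have hqq : 0 < ⟪q, q⟫_ℝ := by
      rcases (real_inner_self_nonneg (x := q)).lt_or_eq with h3 | h3
      · exact h3
      · exfalso
        have : q = 0 := inner_self_eq_zero.1 h3.symm
        rw [this, inner_zero_right] at hpq
        exact lt_irrefl _ hpq
    have h4 := congrArg (fun z => ⟪z, q⟫_ℝ) he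
    simp only [inner_add_left, real_inner_smul_left, inner_zero_left] at h4
    have := comb_pos ha hb hab hpq hqq
    linarith
  have hcl : IsClosed (convexHull ℝ (S ∪ T)) := ((hS.union hT).isCompact_convexHull (𝕜 := ℝ)).isClosed
  obtain ⟨f, u, hu1, hu2⟩ := geometric_hahn_banach_point_closed (convex_convexHull ℝ (S ∪ T)) hcl
    h0
  rw [map_zero] at hu1
  refine ⟨(InnerProductSpace.toDual ℝ E4).symm f, fun x hx => ?_, fun y hy => ?_⟩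
  · rw [InnerProductSpace.toDual_symm_apply]
    exact hu1.trans (hu2 x (subset_convexHull ℝ _ (Or.inl hx)))
  · rw [InnerProductSpace.toDual_symm_apply]
    exact hu1.trans (hu2 y (subset_convexHull ℝ _ (Or.inr hy)))

theorem no_sphere (s t : ℕ) (hs : Odd s) (ht : Odd t) (a b : ℕ → E4) (ha : ∀ i, ‖a i‖ = 1)
    (hb : ∀ j, ‖b j‖ = 1) (fa : (Set.range a).Finite) (fb : (Set.range b).Finite)
    (as : a s = a 0) (as1 : a (s + 1) = a 1) (bt : b t = b 0) (bt1 : b (t + 1) = b 1)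
    (H0 : ∀ i j, 0 < ⟪a i, b j⟫_ℝ)
    (H1 : ∀ i j, ⟪a i, a (i + 1)⟫_ℝ < ⟪a i, b j⟫_ℝ)
    (H2 : ∀ i j, ⟪a (i + 1), a i⟫_ℝ < ⟪a (i + 1), b j⟫_ℝ)
    (H3 : ∀ i j, ⟪b j, b (j + 1)⟫_ℝ < ⟪b j, a i⟫_ℝ)
    (H4 : ∀ i j, ⟪b (j + 1), b j⟫_ℝ < ⟪b (j + 1), a i⟫_ℝ) : False := by
  obtain ⟨o, hoa, hob⟩ := exists_pole (Set.range a) (Set.range b) fa fb (Set.range_nonempty a)
    (Set.range_nonempty b) (by rintro _ ⟨i, rfl⟩ _ ⟨j, rfl⟩; exact H0 i j)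
  have ta : ∀ i, 0 < ⟪o, a i⟫_ℝ := fun i => hoa _ ⟨i, rfl⟩
  have tb : ∀ i, 0 < ⟪o, b i⟫_ℝ := fun i => hob _ ⟨i, rfl⟩
  have ho : o ≠ 0 := by
    rintro rfl
    have := ta 0
    rw [inner_zero_left] at this
    exact lt_irrefl _ this
  have orth : ∀ (c : ℕ → E4) (k : ℕ), ⟪o, ((-1 : ℝ) ^ k) • (⟪o, c k⟫_ℝ • c (k + 1) -
      ⟪o, c (k + 1)⟫_ℝ • c k)⟫_ℝ = 0 := by
    intro c k
    rw [real_inner_smul_right, inner_sub_right, real_inner_smul_right, real_inner_smul_right]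
    ring
  obtain ⟨k, l, α, β, γ, δ, hα, hβ, hγ, hδ, hne, h⟩ := crossing4 o ho s t hs.pos
    (fun k => ((-1 : ℝ) ^ k) • (⟪o, a k⟫_ℝ • a (k + 1) - ⟪o, a (k + 1)⟫_ℝ • a k))
    (fun l => ((-1 : ℝ) ^ l) • (⟪o, b l⟫_ℝ • b (l + 1) - ⟪o, b (l + 1)⟫_ℝ • b l))
    (orth a) (orth b)
    (by simp only [hs.neg_one_pow, as, as1, pow_zero, one_smul, neg_smul, zero_add])
    (by simp only [ht.neg_one_pow, bt, bt1, pow_zero, one_smul, neg_smul, zero_add])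
  have e1 : ∀ (c : ℕ → E4) (k : ℕ) (α β : ℝ),
      α • ((-1 : ℝ) ^ k) • (⟪o, c k⟫_ℝ • c (k + 1) - ⟪o, c (k + 1)⟫_ℝ • c k) +
      β • ((-1 : ℝ) ^ (k + 1)) •
        (⟪o, c (k + 1)⟫_ℝ • c (k + 1 + 1) - ⟪o, c (k + 1 + 1)⟫_ℝ • c (k + 1)) =
      ((-1 : ℝ) ^ k) • ((α * ⟪o, c k⟫_ℝ + β * ⟪o, c (k + 2)⟫_ℝ) • c (k + 1) -
        ((α * ⟪o, c (k + 1)⟫_ℝ) • c k + (β * ⟪o, c (k + 1)⟫_ℝ) • c (k + 2))) := by
    intro c k α β
    rw [pow_succ]; module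
  have e2 : ∀ (c : ℕ → E4) (k : ℕ) (α β : ℝ),
      ⟪o, (α * ⟪o, c k⟫_ℝ + β * ⟪o, c (k + 2)⟫_ℝ) • c (k + 1) -
        ((α * ⟪o, c (k + 1)⟫_ℝ) • c k + (β * ⟪o, c (k + 1)⟫_ℝ) • c (k + 2))⟫_ℝ = 0 := by
    intro c k α β
    simp only [inner_sub_right, inner_add_right, real_inner_smul_right]
    ring
  rw [e1 a k α β, e1 b l γ δ] at h
  have nl : 0 ≤ α * ⟪o, a k⟫_ℝ + β * ⟪o, a (k + 2)⟫_ℝ :=
    add_nonneg (mul_nonneg hα (ta _).le) (mul_nonneg hβ (ta _).le)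
  have nm : 0 ≤ γ * ⟪o, b l⟫_ℝ + δ * ⟪o, b (l + 2)⟫_ℝ :=
    add_nonneg (mul_nonneg hγ (tb _).le) (mul_nonneg hδ (tb _).le)
  have hne' : α * ⟪o, a (k + 1)⟫_ℝ ≠ 0 ∨ β * ⟪o, a (k + 1)⟫_ℝ ≠ 0 ∨
      γ * ⟪o, b (l + 1)⟫_ℝ ≠ 0 ∨ δ * ⟪o, b (l + 1)⟫_ℝ ≠ 0 := by
    rcases hne with h | h | h | h
    · exact Or.inl (mul_ne_zero h (ta _).ne')
    · exact Or.inr (Or.inl (mul_ne_zero h (ta _).ne'))
    · exact Or.inr (Or.inr (Or.inl (mul_ne_zero h (tb _).ne')))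
    · exact Or.inr (Or.inr (Or.inr (mul_ne_zero h (tb _).ne')))
  have K1 : ∀ i j, ⟪a (i + 1), a i⟫_ℝ < ⟪a i, b j⟫_ℝ := fun i j => by
    rw [real_inner_comm]; exact H1 i j
  have K2 : ∀ i j, ⟪a i, a (i + 1)⟫_ℝ < ⟪a (i + 1), b j⟫_ℝ := fun i j => by
    rw [real_inner_comm]; exact H2 i j
  have K3 : ∀ i j, ⟪b (j + 1), b j⟫_ℝ < ⟪a i, b j⟫_ℝ := fun i j => by
    rw [real_inner_comm, real_inner_comm (b j)]; exact H3 i j
  have K4 : ∀ i j, ⟪b j, b (j + 1)⟫_ℝ < ⟪a i, b (j + 1)⟫_ℝ := fun i j => by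
    rw [real_inner_comm, real_inner_comm (b (j + 1)) (a i)]; exact H4 i j
  rcases sign_cases k l _ _ h with h | h
  · exact sph_pos (a (k + 1)) (a k) (a (k + 2)) (b (l + 1)) (b l) (b (l + 2)) (ha _) (hb _)
      (H1 k (l + 1)) (H2 (k + 1) (l + 1)) (H3 (k + 1) l) (H4 (k + 1) (l + 1)) _
      (α * ⟪o, a (k + 1)⟫_ℝ) (β * ⟪o, a (k + 1)⟫_ℝ) _ (γ * ⟪o, b (l + 1)⟫_ℝ)
      (δ * ⟪o, b (l + 1)⟫_ℝ) nl (mul_nonneg hα (ta _).le) (mul_nonneg hβ (ta _).le) nm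
      (mul_nonneg hγ (tb _).le) (mul_nonneg hδ (tb _).le) hne' h
  · refine sph_neg o (a (k + 1)) (a k) (a (k + 2)) (b (l + 1)) (b l) (b (l + 2)) (ha _) (ha _)
      (ha _) (hb _) (hb _) (hb _) (ta _) (ta _) (ta _) (tb _) (tb _) (tb _)
      (H1 k (l + 1)) (H2 (k + 1) (l + 1)) (H3 (k + 1) l) (H4 (k + 1) (l + 1))
      (H2 k (l + 1)) (H1 (k + 1) (l + 1)) (K3 k l) (K4 k (l + 1)) (K3 (k + 2) l)
      (K4 (k + 2) (l + 1)) (K1 k l) (K2 (k + 1) l) (K1 k (l + 2)) (K2 (k + 1) (l + 2))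
      (H0 _ _) (H0 _ _) (H0 _ _) (H0 _ _) (H0 _ _) _
      (α * ⟪o, a (k + 1)⟫_ℝ) (β * ⟪o, a (k + 1)⟫_ℝ) _ (γ * ⟪o, b (l + 1)⟫_ℝ)
      (δ * ⟪o, b (l + 1)⟫_ℝ) nl (mul_nonneg hα (ta _).le) (mul_nonneg hβ (ta _).le) nm
      (mul_nonneg hγ (tb _).le) (mul_nonneg hδ (tb _).le) hne' _ (e2 a k α β) rfl ?_
    rw [h, neg_neg]

end Vale.Agent.P305.H89
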