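import Vale.Agent.P305.R2.H89.FarS

/-! On the three-dimensional sphere the bound `π / 2` is best possible. -/

set_option autoImplicit false

namespace Vale.Agent.P305.H89

open Vale.Agent.P305 Vale.Agent.P305.H529 Vale.Agent.P305.H287
open scoped InnerProductSpace
open InnerProductGeometry

/-- Two disjoint triangles. -/
def twoTriangles : SimpleGraph (Fin 6) where
  Adj i j := i ≠ j ∧ (i.val < 3 ↔ j.val < 3)
  symm := ⟨fun _ _ h => ⟨h.1.symm, h.2.symm⟩⟩
  loopless := ⟨fun _ h => h.1 rfl⟩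

theorem tt_adj (i j : Fin 6) : twoTriangles.Adj i j ↔ i ≠ j ∧ (i.val < 3 ↔ j.val < 3) := Iff.rfl

/-- Two regular triangles on orthogonal great circles. -/
noncomputable def pts : Fin 6 → Fin 4 → ℝ :=
  ![![1, 0, 0, 0], ![-1 / 2, √3 / 2, 0, 0], ![-1 / 2, -(√3 / 2), 0, 0],
    ![0, 0, 1, 0], ![0, 0, -1 / 2, √3 / 2], ![0, 0, -1 / 2, -(√3 / 2)]]

theorem inner4 (x y : Fin 4 → ℝ) : ⟪(WithLp.toLp 2 x : E4), WithLp.toLp 2 y⟫_ℝ =
    x 0 * y 0 + x 1 * y 1 + x 2 * y 2 + x 3 * y 3 := by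
  rw [PiLp.inner_apply, Fin.sum_univ_four]
  simp only [RCLike.inner_apply, conj_trivial]
  ring

theorem pts_inner (i j : Fin 6) : ⟪(WithLp.toLp 2 (pts i) : E4), WithLp.toLp 2 (pts j)⟫_ℝ =
    if i = j then 1 else if (i.val < 3 ↔ j.val < 3) then -1 / 2 else 0 := by
  have h3 : √3 * √3 = 3 := Real.mul_self_sqrt (by norm_num)
  rw [inner4]
  fin_cases i <;> fin_cases j <;> simp [pts] <;> nlinarith

theorem pts_norm (i : Fin 6) : ‖(WithLp.toLp 2 (pts i) : E4)‖ = 1 := by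
  have h := pts_inner i i
  rw [if_pos rfl, real_inner_self_eq_norm_sq] at h
  have h2 := norm_nonneg (WithLp.toLp 2 (pts i) : E4)
  nlinarith

theorem sharp_sphere : IsSphereGraph (Real.pi / 2) twoTriangles := by
  refine ⟨fun i => WithLp.toLp 2 (pts i), pts_norm, fun u v huv => ?_⟩
  have h1 : Real.pi / 2 < angle (WithLp.toLp 2 (pts u) : E4) (WithLp.toLp 2 (pts v)) ↔
      ⟪(WithLp.toLp 2 (pts u) : E4), WithLp.toLp 2 (pts v)⟫_ℝ < 0 := by
    rw [angle, pts_norm, pts_norm, mul_one, div_one, ← not_le, Real.arccos_le_pi_div_two, not_le]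
  rw [h1, pts_inner, if_neg huv, tt_adj]
  by_cases h2 : (u.val < 3 ↔ v.val < 3)
  · rw [if_pos h2]
    exact ⟨fun _ => by norm_num, fun _ => ⟨huv, h2⟩⟩
  · rw [if_neg h2]
    exact ⟨fun h => absurd h.2 h2, fun h => absurd h (lt_irrefl _)⟩

theorem not_bip (a b c : Fin 6) (S : Set (Fin 6)) (ha : a ∈ S) (hb : b ∈ S) (hc : c ∈ S)
    (hab : twoTriangles.Adj a b) (hbc : twoTriangles.Adj b c) (hac : twoTriangles.Adj a c) :
    ¬ (twoTriangles.induce S).IsBipartite := by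
  rintro ⟨col⟩
  have h1 := col.valid (v := ⟨a, ha⟩) (w := ⟨b, hb⟩) hab
  have h2 := col.valid (v := ⟨b, hb⟩) (w := ⟨c, hc⟩) hbc
  have h3 := col.valid (v := ⟨a, ha⟩) (w := ⟨c, hc⟩) hac
  omega

theorem sharp_packing : 2 ≤ oddPackingIn twoTriangles Set.univ := by
  refine le_oddPackingIn (S := ![{i | i.val < 3}, {i | ¬ i.val < 3}])
    (fun i => Set.subset_univ _) ⟨?_, ?_⟩
  · intro i
    fin_cases i
    · exact not_bip 0 1 2 {i | i.val < 3} (by simp) (by simp) (by simp)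
        ((tt_adj _ _).2 (by decide)) ((tt_adj _ _).2 (by decide)) ((tt_adj _ _).2 (by decide))
    · exact not_bip 3 4 5 {i | ¬ i.val < 3} (by simp) (by simp) (by simp)
        ((tt_adj _ _).2 (by decide)) ((tt_adj _ _).2 (by decide)) ((tt_adj _ _).2 (by decide))
  · intro i j hij u hu v hv
    fin_cases i <;> fin_cases j
    · exact absurd rfl hij
    · have hu' : u.val < 3 := hu
      have hv' : ¬ v.val < 3 := hv
      exact ⟨fun h => hv' (h ▸ hu'), fun h => hv' (((tt_adj _ _).1 h).2.1 hu')⟩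
    · have hu' : ¬ u.val < 3 := hu
      have hv' : v.val < 3 := hv
      exact ⟨fun h => hu' (h.symm ▸ hv'), fun h => hu' (((tt_adj _ _).1 h).2.2 hv')⟩
    · exact absurd rfl hij

end Vale.Agent.P305.H89
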