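import Mathlib

/-! Two triples of points which are nearer to each other than to their neighbours: spherical
geometry. -/

set_option autoImplicit false

namespace Vale.Agent.P305.H89

open scoped InnerProductSpace

theorem slopeS (B1 B2 P1 P2 Q1 Q2 θ : ℝ) (hB : B1 ^ 2 + B2 ^ 2 = 1) (hB1 : 0 < B1) (hP1 : 0 < P1)
    (hQ1 : 0 < Q1) (hP : P1 ^ 2 + P2 ^ 2 ≤ θ ^ 2) (hθ : 0 < θ)
    (hR : 0 < P1 * Q1 + P2 * Q2)
    (h : θ * (B1 * Q1 + B2 * Q2) < P1 * Q1 + P2 * Q2) (hU : 0 < B1 * Q2 - B2 * Q1) :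
    0 < B1 * P2 - P1 * B2 := by
  by_contra hcon
  push Not at hcon
  obtain ⟨T, hT⟩ : ∃ T, T = P1 * B2 - P2 * B1 := ⟨_, rfl⟩
  obtain ⟨U, hU'⟩ : ∃ U, U = B1 * Q2 - B2 * Q1 := ⟨_, rfl⟩
  obtain ⟨W, hW⟩ : ∃ W, W = P1 * Q2 - P2 * Q1 := ⟨_, rfl⟩
  obtain ⟨q, hq⟩ : ∃ q, q = B1 * Q1 + B2 * Q2 := ⟨_, rfl⟩
  obtain ⟨R, hR'⟩ : ∃ R, R = P1 * Q1 + P2 * Q2 := ⟨_, rfl⟩
  have hT0 : 0 ≤ T := by rw [hT]; linarith
  have hU0 : 0 < U := by rw [hU']; exact hU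
  have hR0 : 0 < R := by rw [hR']; exact hR
  rw [← hq, ← hR'] at h
  have f1 : B1 * W = P1 * U + Q1 * T := by rw [hU', hT, hW]; ring
  have f2 : B2 * W = P2 * U + Q2 * T := by rw [hU', hT, hW]; ring
  have hW0 : 0 < W := by
    have h1 : 0 < P1 * U := mul_pos hP1 hU0
    have h2 : 0 ≤ Q1 * T := mul_nonneg hQ1.le hT0
    have h3 : 0 < B1 * W := by rw [f1]; linarith
    exact (pos_iff_pos_of_mul_pos h3).1 hB1
  rcases lt_or_ge q 0 with hq0 | hq0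
  · have h1 : U * R = W * q - T * (Q1 ^ 2 + Q2 ^ 2) := by
      have : U * R + T * (Q1 ^ 2 + Q2 ^ 2) = (P1 * U + Q1 * T) * Q1 + (P2 * U + Q2 * T) * Q2 := by
        rw [hR']; ring
      rw [← f1, ← f2] at this
      rw [hq]; linarith
    have h2 : W * q < 0 := mul_neg_of_pos_of_neg hW0 hq0
    have h3 : 0 ≤ T * (Q1 ^ 2 + Q2 ^ 2) := by positivity
    have h4 : 0 < U * R := mul_pos hU0 hR0
    linarith
  · have e3 : W ^ 2 = U ^ 2 * (P1 ^ 2 + P2 ^ 2) + 2 * U * T * R + T ^ 2 * (Q1 ^ 2 + Q2 ^ 2) := by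
      have f3 : W ^ 2 = (B1 * W) ^ 2 + (B2 * W) ^ 2 := by
        have : (B1 * W) ^ 2 + (B2 * W) ^ 2 = (B1 ^ 2 + B2 ^ 2) * W ^ 2 := by ring
        rw [this, hB, one_mul]
      rw [f3, f1, f2, hR']; ring
    have e1 : q ^ 2 = (Q1 ^ 2 + Q2 ^ 2) - U ^ 2 := by
      have : q ^ 2 = (B1 ^ 2 + B2 ^ 2) * (Q1 ^ 2 + Q2 ^ 2) - U ^ 2 := by rw [hq, hU']; ring
      rw [this, hB, one_mul]
    have e2 : R ^ 2 = (P1 ^ 2 + P2 ^ 2) * (Q1 ^ 2 + Q2 ^ 2) - W ^ 2 := by rw [hR', hW]; ring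
    have s1 : θ ^ 2 * q ^ 2 < R ^ 2 := by
      rw [← mul_pow]
      exact pow_lt_pow_left₀ h (mul_nonneg hθ.le hq0) two_ne_zero
    have s2 : (P1 ^ 2 + P2 ^ 2) * q ^ 2 ≤ θ ^ 2 * q ^ 2 :=
      mul_le_mul_of_nonneg_right hP (sq_nonneg _)
    have s3 : 0 ≤ 2 * U * T * R + T ^ 2 * (Q1 ^ 2 + Q2 ^ 2) := by positivity
    have s4 : R ^ 2 ≤ (P1 ^ 2 + P2 ^ 2) * q ^ 2 := by
      rw [e2, e3, e1]; linarith
    linarith

theorem planeS (A1 A2 B1 B2 P1 P2 Q1 Q2 θ η k R : ℝ) (hAA : A1 ^ 2 + A2 ^ 2 = 1)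
    (hBB : B1 ^ 2 + B2 ^ 2 = 1) (hA1p : 0 < A1) (hB1p : 0 < B1) (hP1p : 0 < P1) (hQ1p : 0 < Q1)
    (hθ : 0 < θ) (hη : 0 < η) (R1 : P1 ^ 2 + P2 ^ 2 ≤ θ ^ 2) (R2 : Q1 ^ 2 + Q2 ^ 2 ≤ η ^ 2)
    (hk : 0 < k) (hk2 : k ≤ A1 * B1 + A2 * B2) (hR : 0 < R) (hR2 : R ≤ P1 * Q1 + P2 * Q2)
    (g1 : θ * (B1 * Q1 + B2 * Q2) < R) (g2 : η * (A1 * P1 + A2 * P2) < R)
    (g3 : A1 * P1 + A2 * P2 < θ * k)
    (u1 : 0 < B1 * Q2 - B2 * Q1) (u2 : 0 < A2 * P1 - A1 * P2) : False := by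
  have hRp : 0 < P1 * Q1 + P2 * Q2 := lt_of_lt_of_le hR hR2
  have c1 : 0 < B1 * P2 - P1 * B2 :=
    slopeS B1 B2 P1 P2 Q1 Q2 θ hBB hB1p hP1p hQ1p R1 hθ hRp (by linarith) u1
  have c2 : 0 < A1 * (-Q2) - Q1 * (-A2) := by
    refine slopeS A1 (-A2) Q1 (-Q2) P1 (-P2) η (by rw [neg_sq]; exact hAA) hA1p hQ1p hP1p
      (by rw [neg_sq]; exact R2) hη ?_ ?_ ?_
    · have e1 : Q1 * P1 + -Q2 * -P2 = P1 * Q1 + P2 * Q2 := by ring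
      rw [e1]; exact hRp
    · have e1 : Q1 * P1 + -Q2 * -P2 = P1 * Q1 + P2 * Q2 := by ring
      have e2 : A1 * P1 + -A2 * -P2 = A1 * P1 + A2 * P2 := by ring
      rw [e1, e2]; linarith
    · have : A1 * -P2 - -A2 * P1 = A2 * P1 - A1 * P2 := by ring
      rw [this]; exact u2
  obtain ⟨p, hp⟩ : ∃ p, p = A1 * P1 + A2 * P2 := ⟨_, rfl⟩
  obtain ⟨q, hq⟩ : ∃ q, q = B1 * Q1 + B2 * Q2 := ⟨_, rfl⟩
  obtain ⟨K, hK⟩ : ∃ K, K = A1 * B1 + A2 * B2 := ⟨_, rfl⟩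
  obtain ⟨S, hS⟩ : ∃ S, S = P1 * Q1 + P2 * Q2 := ⟨_, rfl⟩
  have d3 : (B1 * P2 - P1 * B2) * (A2 * Q1 - A1 * Q2) = p * q - K * S := by
    rw [hp, hq, hK, hS]; ring
  have c3 : 0 < p * q - K * S := by
    rw [← d3]; exact mul_pos c1 (by linarith)
  rw [← hq] at g1
  rw [← hp] at g2 g3
  rw [← hK] at hk2
  rw [← hS] at hR2 hRp
  have hKp : 0 < K := lt_of_lt_of_le hk hk2
  have hKS : 0 < K * S := mul_pos hKp hRp
  have hpq : 0 < p * q := by linarith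
  rcases pos_and_pos_or_neg_and_neg_of_mul_pos hpq with ⟨h1, h2⟩ | ⟨h1, h2⟩
  · have e1 : p * q < θ * k * q := mul_lt_mul_of_pos_right g3 h2
    have e2 : k * (θ * q) < k * R := mul_lt_mul_of_pos_left g1 hk
    have e3 : k * R ≤ K * S := mul_le_mul hk2 hR2 hR.le hKp.le
    have e4 : θ * k * q = k * (θ * q) := by ring
    linarith
  · have hA2 : 0 < A2 := by
      by_contra hneg
      push Not at hneg
      have h3 : A2 * P1 ≤ 0 := mul_nonpos_of_nonpos_of_nonneg hneg hP1p.le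
      have h4 : A1 * P2 < 0 := by linarith
      have h5 : P2 < 0 := by
        by_contra h6
        push Not at h6
        have := mul_nonneg hA1p.le h6
        linarith
      have h6 : 0 ≤ A2 * P2 := mul_nonneg_of_nonpos_of_nonpos hneg h5.le
      have h7 : 0 < A1 * P1 := mul_pos hA1p hP1p
      linarith
    have h3 : P1 * K = P1 * (A1 * B1) + A2 * (P1 * B2) := by rw [hK]; ring
    have h4 : A2 * (P1 * B2) < A2 * (B1 * P2) := mul_lt_mul_of_pos_left (by linarith) hA2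
    have h5 : P1 * (A1 * B1) + A2 * (B1 * P2) = B1 * p := by rw [hp]; ring
    have h6 : B1 * p < 0 := mul_neg_of_pos_of_neg hB1p h1
    have h7 : 0 < P1 * K := mul_pos hP1p hKp
    linarith

end Vale.Agent.P305.H89
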