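import Mathlib

/-! Two closed polygons of the projective plane which are one-sided meet: a proof by winding
numbers. -/

set_option autoImplicit false

namespace Vale.Agent.P305.H89

open Finset

/-- The scalar product. -/
def ip (v w : Fin 3 → ℝ) : ℝ := v 0 * w 0 + v 1 * w 1 + v 2 * w 2

/-- The determinant. -/
def dt (u v w : Fin 3 → ℝ) : ℝ :=
  u 0 * (v 1 * w 2 - v 2 * w 1) - u 1 * (v 0 * w 2 - v 2 * w 0) + u 2 * (v 0 * w 1 - v 1 * w 0)

/-- The real part. -/
def re3 (w v v' : Fin 3 → ℝ) : ℝ := ip w w * ip v v' - ip v w * ip v' w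

/-- The vectors `v, v'`, seen in the direction `w`, as the complex number whose argument is the
angle from the first to the second. -/
noncomputable def zz (w v v' : Fin 3 → ℝ) : ℂ := ⟨re3 w v v', √(ip w w) * dt w v v'⟩

theorem ip_self_nonneg (w : Fin 3 → ℝ) : 0 ≤ ip w w := by
  unfold ip; nlinarith [sq_nonneg (w 0), sq_nonneg (w 1), sq_nonneg (w 2)]

theorem re3_self_nonneg (w v : Fin 3 → ℝ) : 0 ≤ re3 w v v := by
  have : re3 w v v = (w 1 * v 2 - w 2 * v 1) ^ 2 + (w 0 * v 2 - w 2 * v 0) ^ 2 +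
      (w 0 * v 1 - w 1 * v 0) ^ 2 := by unfold re3 ip; ring
  rw [this]; positivity

theorem zz_mul (w u v v' : Fin 3 → ℝ) :
    zz w u v * zz w v v' = ((re3 w v v : ℝ) : ℂ) * zz w u v' := by
  have h := Real.mul_self_sqrt (ip_self_nonneg w)
  apply Complex.ext
  · simp only [zz, Complex.mul_re, Complex.ofReal_re, Complex.ofReal_im]
    have : re3 w u v * re3 w v v' - √(ip w w) * dt w u v * (√(ip w w) * dt w v v') =
        re3 w u v * re3 w v v' - (√(ip w w) * √(ip w w)) * (dt w u v * dt w v v') := by ring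
    rw [this, h]
    simp only [re3, ip, dt]
    ring
  · simp only [zz, Complex.mul_im, Complex.ofReal_re, Complex.ofReal_im]
    have : re3 w u v * (√(ip w w) * dt w v v') + √(ip w w) * dt w u v * re3 w v v' =
        √(ip w w) * (re3 w u v * dt w v v' + dt w u v * re3 w v v') := by ring
    rw [this]
    have h2 : re3 w v v * (√(ip w w) * dt w u v') + 0 * re3 w u v' =
        √(ip w w) * (re3 w v v * dt w u v') := by ring
    rw [h2]
    congr 1
    simp only [re3, ip, dt]
    ring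

theorem zz_neg_left (w v v' : Fin 3 → ℝ) :
    zz (-w) v v' = (starRingEnd ℂ) (zz w v v') := by
  have h : ip (-w) (-w) = ip w w := by simp [ip]
  apply Complex.ext
  · simp only [zz, Complex.conj_re, re3, h]
    simp only [ip, Pi.neg_apply]
    ring
  · simp only [zz, Complex.conj_im, h]
    simp only [dt, Pi.neg_apply]
    ring

theorem zz_neg_right (w v : Fin 3 → ℝ) : zz w v (-v) = ((-(re3 w v v) : ℝ) : ℂ) := by
  apply Complex.ext
  · simp only [zz, Complex.ofReal_re]; simp [re3, ip]; ring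
  · simp only [zz, Complex.ofReal_im, dt, Pi.neg_apply]; ring

/-- If `v, v'` seen in the direction `w` do not make an angle less than `π`, then some nonnegative
combination is a multiple of `w`. -/
theorem combination (w v v' : Fin 3 → ℝ) (hw : w ≠ 0) (h : zz w v v' ∉ Complex.slitPlane) :
    ∃ α β c : ℝ, 0 ≤ α ∧ 0 ≤ β ∧ (α ≠ 0 ∨ β ≠ 0) ∧ α • v + β • v' = c • w := by
  have hN : 0 < ip w w := by
    rcases (ip_self_nonneg w).lt_or_eq with h1 | h1
    · exact h1
    · exfalso
      apply hw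
      have h0 : w 0 ^ 2 + w 1 ^ 2 + w 2 ^ 2 = 0 := by unfold ip at h1; linarith
      have e0 : w 0 = 0 := by nlinarith [sq_nonneg (w 0), sq_nonneg (w 1), sq_nonneg (w 2)]
      have e1 : w 1 = 0 := by nlinarith [sq_nonneg (w 0), sq_nonneg (w 1), sq_nonneg (w 2)]
      have e2 : w 2 = 0 := by nlinarith [sq_nonneg (w 0), sq_nonneg (w 1), sq_nonneg (w 2)]
      ext i
      fin_cases i
      · exact e0
      · exact e1
      · exact e2
  rw [Complex.mem_slitPlane_iff, not_or, not_lt, not_not] at h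
  obtain ⟨h1, h2⟩ := h
  simp only [zz] at h1 h2
  have hd : dt w v v' = 0 := by
    rcases mul_eq_zero.1 h2 with h3 | h3
    · exact absurd h3 (Real.sqrt_pos.2 hN).ne'
    · exact h3
  by_cases hG : re3 w v v = 0
  · have hs : (w 1 * v 2 - w 2 * v 1) ^ 2 + (w 0 * v 2 - w 2 * v 0) ^ 2 +
        (w 0 * v 1 - w 1 * v 0) ^ 2 = 0 := by rw [← hG]; unfold re3 ip; ring
    have c0 : w 1 * v 2 - w 2 * v 1 = 0 := by
      nlinarith [sq_nonneg (w 1 * v 2 - w 2 * v 1), sq_nonneg (w 0 * v 2 - w 2 * v 0),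
        sq_nonneg (w 0 * v 1 - w 1 * v 0)]
    have c1 : w 0 * v 2 - w 2 * v 0 = 0 := by
      nlinarith [sq_nonneg (w 1 * v 2 - w 2 * v 1), sq_nonneg (w 0 * v 2 - w 2 * v 0),
        sq_nonneg (w 0 * v 1 - w 1 * v 0)]
    have c2 : w 0 * v 1 - w 1 * v 0 = 0 := by
      nlinarith [sq_nonneg (w 1 * v 2 - w 2 * v 1), sq_nonneg (w 0 * v 2 - w 2 * v 0),
        sq_nonneg (w 0 * v 1 - w 1 * v 0)]
    refine ⟨ip w w, 0, ip v w, hN.le, le_rfl, Or.inl hN.ne', ?_⟩
    ext i
    simp only [Pi.add_apply, Pi.smul_apply, smul_eq_mul, zero_mul, add_zero]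
    fin_cases i
    · simp only [ip, Fin.zero_eta]; linear_combination (-w 2) * c1 - w 1 * c2
    · simp only [ip, Fin.mk_one]; linear_combination (-w 2) * c0 + w 0 * c2
    · simp only [ip, Fin.reduceFinMk]; linear_combination w 1 * c0 + w 0 * c1
  · have hGp : 0 < re3 w v v := lt_of_le_of_ne (re3_self_nonneg w v) (Ne.symm hG)
    refine ⟨-(re3 w v v'), re3 w v v,
      (-(re3 w v v') * ip v w + re3 w v v * ip v' w) / ip w w, by linarith, hGp.le,
      Or.inr hGp.ne', ?_⟩
    ext i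
    simp only [Pi.add_apply, Pi.smul_apply, smul_eq_mul]
    rw [div_mul_eq_mul_div, eq_div_iff hN.ne']
    fin_cases i
    · simp only [Fin.zero_eta]
      have : (-(re3 w v v') * v 0 + re3 w v v * v' 0) * ip w w -
          (-(re3 w v v') * ip v w + re3 w v v * ip v' w) * w 0 =
          ip w w * dt w v v' * (w 1 * v 2 - w 2 * v 1) := by simp only [re3, ip, dt]; ring
      rw [hd] at this
      linarith
    · simp only [Fin.mk_one]
      have : (-(re3 w v v') * v 1 + re3 w v v * v' 1) * ip w w -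
          (-(re3 w v v') * ip v w + re3 w v v * ip v' w) * w 1 =
          ip w w * dt w v v' * (w 2 * v 0 - w 0 * v 2) := by simp only [re3, ip, dt]; ring
      rw [hd] at this
      linarith
    · simp only [Fin.reduceFinMk]
      have : (-(re3 w v v') * v 2 + re3 w v v * v' 2) * ip w w -
          (-(re3 w v v') * ip v w + re3 w v v * ip v' w) * w 2 =
          ip w w * dt w v v' * (w 0 * v 1 - w 1 * v 0) := by simp only [re3, ip, dt]; ring
      rw [hd] at this
      linarith

/-- The total turning. -/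
noncomputable def turn (s : ℕ) (v : ℕ → Fin 3 → ℝ) (w : Fin 3 → ℝ) : ℝ :=
  ∑ k ∈ range s, Complex.arg (zz w (v k) (v (k + 1)))

theorem prod_zz (v : ℕ → Fin 3 → ℝ) (w : Fin 3 → ℝ)
    (h : ∀ k, zz w (v k) (v (k + 1)) ∈ Complex.slitPlane) (n : ℕ) :
    ∃ r : ℝ, 0 < r ∧ ∏ k ∈ range (n + 1), zz w (v k) (v (k + 1)) =
      (r : ℂ) * zz w (v 0) (v (n + 1)) := by
  induction n with
  | zero => exact ⟨1, one_pos, by simp⟩
  | succ n ih =>
    obtain ⟨r, hr, h1⟩ := ih
    have h2 : re3 w (v (n + 1)) (v (n + 1)) ≠ 0 := by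
      intro h0
      have h3 : ∏ k ∈ range (n + 1 + 1), zz w (v k) (v (k + 1)) ≠ 0 :=
        prod_ne_zero_iff.2 fun k _ => Complex.slitPlane_ne_zero (h k)
      rw [prod_range_succ, h1, mul_assoc, zz_mul, h0] at h3
      simp at h3
    refine ⟨r * re3 w (v (n + 1)) (v (n + 1)),
      mul_pos hr (lt_of_le_of_ne (re3_self_nonneg _ _) h2.symm), ?_⟩
    rw [prod_range_succ, h1, mul_assoc, zz_mul]
    push_cast
    ring

theorem cos_turn (s : ℕ) (hs : 0 < s) (v : ℕ → Fin 3 → ℝ) (w : Fin 3 → ℝ)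
    (hv : v s = - v 0) (h : ∀ k, zz w (v k) (v (k + 1)) ∈ Complex.slitPlane) :
    Real.cos (turn s v w) = -1 := by
  obtain ⟨n, rfl⟩ : ∃ n, s = n + 1 := ⟨s - 1, by omega⟩
  obtain ⟨r, hr, h1⟩ := prod_zz v w h n
  rw [hv, zz_neg_right] at h1
  have h2 : ∏ k ∈ range (n + 1), zz w (v k) (v (k + 1)) =
      ((∏ k ∈ range (n + 1), ‖zz w (v k) (v (k + 1))‖ : ℝ) : ℂ) *
        Complex.exp ((turn (n + 1) v w : ℝ) * Complex.I) := by
    rw [turn]
    push_cast
    rw [sum_mul, Complex.exp_sum, ← prod_mul_distrib]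
    exact prod_congr rfl fun k _ => (Complex.norm_mul_exp_arg_mul_I _).symm
  have hpos : 0 < ∏ k ∈ range (n + 1), ‖zz w (v k) (v (k + 1))‖ :=
    prod_pos fun k _ => norm_pos_iff.2 (Complex.slitPlane_ne_zero (h k))
  rw [h1, ← Complex.ofReal_mul] at h2
  set M := ∏ k ∈ range (n + 1), ‖zz w (v k) (v (k + 1))‖ with hM
  set θ := turn (n + 1) v w with hθ
  rw [Complex.exp_mul_I, ← Complex.ofReal_cos, ← Complex.ofReal_sin] at h2
  have hre := congrArg Complex.re h2
  have him := congrArg Complex.im h2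
  simp only [Complex.mul_re, Complex.mul_im, Complex.add_re, Complex.add_im, Complex.ofReal_re,
    Complex.ofReal_im, Complex.I_re, Complex.I_im] at hre him
  ring_nf at hre him
  have hsin : Real.sin θ = 0 := by
    rcases mul_eq_zero.1 him.symm with h3 | h3
    · exact absurd h3 hpos.ne'
    · exact h3
  have hG := re3_self_nonneg w (v 0)
  have hcos : Real.cos θ ≤ 0 := by
    by_contra hc
    push Not at hc
    have : 0 < M * Real.cos θ := mul_pos hpos hc
    nlinarith [mul_nonneg hr.le hG]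
  have h5 := Real.sin_sq_add_cos_sq θ
  rw [hsin] at h5
  nlinarith

theorem turn_neg (s : ℕ) (v : ℕ → Fin 3 → ℝ) (w : Fin 3 → ℝ)
    (h : ∀ k, zz w (v k) (v (k + 1)) ∈ Complex.slitPlane) : turn s v (-w) = - turn s v w := by
  rw [turn, turn, ← sum_neg_distrib]
  refine sum_congr rfl fun k _ => ?_
  rw [zz_neg_left, Complex.arg_conj, if_neg]
  exact Complex.slitPlane_arg_ne_pi (h k)

theorem const_of_cos (f : ℝ → ℝ) (hf : ContinuousOn f (Set.Icc 0 1))
    (hc : ∀ x ∈ Set.Icc (0 : ℝ) 1, Real.cos (f x) = -1) : f 0 = f 1 := by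
  have key : ∀ g : ℝ → ℝ, ContinuousOn g (Set.Icc 0 1) →
      (∀ x ∈ Set.Icc (0 : ℝ) 1, Real.cos (g x) = -1) → ¬ g 0 < g 1 := by
    intro g hg hc hlt
    obtain ⟨ε, hε, h1⟩ : ∃ ε : ℝ, 0 < ε ∧ ε < Real.pi ∧ g 0 + ε ≤ g 1 := by
      refine ⟨min (Real.pi / 2) (g 1 - g 0), lt_min (by positivity) (by linarith), ?_, ?_⟩
      · exact lt_of_le_of_lt (min_le_left _ _) (by linarith [Real.pi_pos])
      · linarith [min_le_right (Real.pi / 2) (g 1 - g 0)]
    obtain ⟨x, hx, h2⟩ := intermediate_value_Icc zero_le_one hg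
      (show g 0 + ε ∈ Set.Icc (g 0) (g 1) from ⟨by linarith, h1.2⟩)
    have h3 := hc x hx
    have h4 := hc 0 ⟨le_rfl, zero_le_one⟩
    rw [h2, Real.cos_add, h4] at h3
    have h5 := Real.sin_sq_add_cos_sq (g 0)
    rw [h4] at h5
    have h6 : Real.sin (g 0) = 0 := by nlinarith
    rw [h6] at h3
    have h7 : Real.cos ε = 1 := by linarith
    have h8 := Real.cos_lt_cos_of_nonneg_of_le_pi (le_refl 0) h1.1.le hε
    rw [Real.cos_zero] at h8
    linarith
  rcases lt_trichotomy (f 0) (f 1) with h | h | h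
  · exact absurd h (key f hf hc)
  · exact h
  · exact absurd (by simpa using h) (key (fun x => - f x) hf.neg
      (fun x hx => by rw [Real.cos_neg]; exact hc x hx))

/-- Two closed polygons of the projective plane, both changing sign after one turn, meet. -/
theorem crossing (s t : ℕ) (hs : 0 < s) (v w : ℕ → Fin 3 → ℝ) (hv : v s = - v 0)
    (hw : w t = - w 0) : ∃ k l : ℕ, ∃ α β γ δ : ℝ, 0 ≤ α ∧ 0 ≤ β ∧ 0 ≤ γ ∧ 0 ≤ δ ∧
      (α ≠ 0 ∨ β ≠ 0 ∨ γ ≠ 0 ∨ δ ≠ 0) ∧
      (α • v k + β • v (k + 1) = γ • w l + δ • w (l + 1) ∨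
        α • v k + β • v (k + 1) = -(γ • w l + δ • w (l + 1))) := by
  by_contra hcon
  have hx0 : ∀ l : ℕ, ∀ τ ∈ Set.Icc (0 : ℝ) 1, (1 - τ) • w l + τ • w (l + 1) ≠ 0 := by
    intro l τ hτ h0
    refine hcon ⟨0, l, 0, 0, 1 - τ, τ, le_rfl, le_rfl, by linarith [hτ.2], hτ.1, ?_, Or.inl ?_⟩
    · by_cases h1 : τ = 0
      · right; right; left; rw [h1]; norm_num
      · right; right; right; exact h1
    · rw [h0]; simp
  have hslit : ∀ (k l : ℕ), ∀ τ ∈ Set.Icc (0 : ℝ) 1,
      zz ((1 - τ) • w l + τ • w (l + 1)) (v k) (v (k + 1)) ∈ Complex.slitPlane := by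
    intro k l τ hτ
    by_contra hns
    obtain ⟨α, β, c, hα, hβ, hne, h1⟩ := combination _ _ _ (hx0 l τ hτ) hns
    rcases le_total 0 c with hc | hc
    · refine hcon ⟨k, l, α, β, c * (1 - τ), c * τ, hα, hβ, mul_nonneg hc (by linarith [hτ.2]),
        mul_nonneg hc hτ.1, ?_, Or.inl ?_⟩
      · rcases hne with h | h
        · exact Or.inl h
        · exact Or.inr (Or.inl h)
      · rw [h1, smul_add, smul_smul, smul_smul]
    · refine hcon ⟨k, l, α, β, (-c) * (1 - τ), (-c) * τ, hα, hβ,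
        mul_nonneg (by linarith) (by linarith [hτ.2]), mul_nonneg (by linarith) hτ.1, ?_,
        Or.inr ?_⟩
      · rcases hne with h | h
        · exact Or.inl h
        · exact Or.inr (Or.inl h)
      · rw [h1, smul_add, smul_smul, smul_smul, neg_mul, neg_mul, neg_smul, neg_smul]
        abel
  have hstep : ∀ l, turn s v (w l) = turn s v (w (l + 1)) := by
    intro l
    have h := const_of_cos (fun τ => turn s v ((1 - τ) • w l + τ • w (l + 1))) ?_ ?_
    · simpa using h
    · unfold turn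
      refine continuousOn_finsetSum _ fun k _ => ?_
      intro τ hτ
      refine ContinuousAt.continuousWithinAt ?_
      refine ContinuousAt.comp (f := fun τ : ℝ =>
        zz ((1 - τ) • w l + τ • w (l + 1)) (v k) (v (k + 1)))
        (Complex.continuousAt_arg (hslit k l τ hτ)) ?_
      have : Continuous fun τ : ℝ => zz ((1 - τ) • w l + τ • w (l + 1)) (v k) (v (k + 1)) := by
        have e : (fun τ : ℝ => zz ((1 - τ) • w l + τ • w (l + 1)) (v k) (v (k + 1))) =
            fun τ : ℝ => Complex.equivRealProdCLM.symm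
              (re3 ((1 - τ) • w l + τ • w (l + 1)) (v k) (v (k + 1)),
                √(ip ((1 - τ) • w l + τ • w (l + 1)) ((1 - τ) • w l + τ • w (l + 1))) *
                dt ((1 - τ) • w l + τ • w (l + 1)) (v k) (v (k + 1))) := by
          funext τ
          rfl
        rw [e]
        refine Complex.equivRealProdCLM.symm.continuous.comp ?_
        simp only [re3, ip, dt, Pi.add_apply, Pi.smul_apply, smul_eq_mul]
        fun_prop
      exact this.continuousAt
    · intro τ hτ
      exact cos_turn s hs v _ hv fun k => hslit k l τ hτ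
  have hall : ∀ l, turn s v (w 0) = turn s v (w l) := by
    intro l
    induction l with
    | zero => rfl
    | succ n ih => rw [ih, hstep]
  have hs0 : ∀ k, zz (w 0) (v k) (v (k + 1)) ∈ Complex.slitPlane := by
    intro k
    simpa using hslit k 0 0 ⟨le_rfl, zero_le_one⟩
  have h1 := hall t
  rw [hw, turn_neg s v (w 0) hs0] at h1
  have h2 : turn s v (w 0) = 0 := by linarith
  have h3 := cos_turn s hs v (w 0) hv hs0
  rw [h2, Real.cos_zero] at h3
  norm_num at h3

end Vale.Agent.P305.H89
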